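import Vale.Agent.P197.Basic

namespace Vale.Agent.P197

open Finset Equiv

section
variable {ι κ : Type} [Fintype ι] [DecidableEq ι] [Fintype κ] [DecidableEq κ]

def term (c1 r1 c2 r2 c3 r3 : ι → ℕ) (x y : ι → Fin 2) : ℤ :=
  S c1 r1 (fun p => x p) * S c2 r2 (fun p => y p) * S c3 r3 (fun p => 2 * x p + y p)

def kap (c1 r1 c2 r2 c3 r3 : ι → ℕ) : ℤ :=
  ∑ x : ι → Fin 2, ∑ y : ι → Fin 2, term c1 r1 c2 r2 c3 r3 x y

lemma Good.of_kap {c1 r1 c2 r2 c3 r3 : ι → ℕ} (h : kap c1 r1 c2 r2 c3 r3 ≠ 0) :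
    Good c1 r1 c2 r2 c3 r3 := by
  by_contra hn
  unfold Good at hn
  push Not at hn
  have h1 : ∑ x : ι → Fin 2, ∑ y : ι → Fin 2,
      K c1 r1 c2 r2 c3 r3 (fun p => x p) (fun p => y p) (fun p => 2 * x p + y p) = 0 := by
    simp [hn]
  unfold K at h1
  simp only [sum_comm (s := (univ : Finset (ι → Fin 2))) (t := (univ : Finset (Perm ι)))] at h1
  have h2 : ∀ g : Perm ι, ∑ x : ι → Fin 2, ∑ y : ι → Fin 2,
      S c1 r1 ((fun p => (x p : ℕ)) ∘ g) * S c2 r2 ((fun p => (y p : ℕ)) ∘ g) *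
        S c3 r3 ((fun p => 2 * (x p : ℕ) + y p) ∘ g) = kap c1 r1 c2 r2 c3 r3 := by
    intro g
    unfold kap
    symm
    rw [← Equiv.sum_comp (Equiv.arrowCongr g.symm (Equiv.refl (Fin 2)))]
    refine sum_congr rfl fun x _ => ?_
    rw [← Equiv.sum_comp (Equiv.arrowCongr g.symm (Equiv.refl (Fin 2)))]
    rfl
  simp only [h2, sum_const, card_univ, nsmul_eq_mul, mul_eq_zero, Nat.cast_eq_zero] at h1
  rcases h1 with h1 | h1
  · exact Fintype.card_ne_zero h1
  · exact h h1

lemma kap_equiv (e : κ ≃ ι) (c1 r1 c2 r2 c3 r3 : ι → ℕ) :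
    kap (c1 ∘ e) (r1 ∘ e) (c2 ∘ e) (r2 ∘ e) (c3 ∘ e) (r3 ∘ e) = kap c1 r1 c2 r2 c3 r3 := by
  unfold kap
  rw [← Equiv.sum_comp (Equiv.arrowCongr e.symm (Equiv.refl (Fin 2)))]
  refine sum_congr rfl fun x _ => ?_
  rw [← Equiv.sum_comp (Equiv.arrowCongr e.symm (Equiv.refl (Fin 2)))]
  refine sum_congr rfl fun y _ => ?_
  unfold term
  rw [← S_equiv e c1, ← S_equiv e c2, ← S_equiv e c3]
  rfl

end

def kapN (n : ℕ) : ℤ :=
  kap (fun k : Fin n => k / 2) (fun k => k % 2) (fun k => (k + 1) / 2) (fun k => k % 2)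
    (fun k => k / 4) (fun k => k % 4)

lemma kapN_one : kapN 1 = 1 := by decide +kernel

lemma kapN_three : kapN 3 = 3 := by decide +kernel

lemma kapN_four : kapN 4 = 6 := by decide +kernel

lemma kapN_add (n : ℕ) : kapN (4 + n) = kapN 4 * kapN n := by
  unfold kapN
  rw [← kap_equiv finSumFinEquiv]
  unfold kap
  rw [← Equiv.sum_comp (Equiv.sumArrowEquivProdArrow (Fin 4) (Fin n) (Fin 2)).symm,
    Fintype.sum_prod_type, sum_mul_sum]
  refine sum_congr rfl fun xA _ => sum_congr rfl fun xB _ => ?_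
  rw [← Equiv.sum_comp (Equiv.sumArrowEquivProdArrow (Fin 4) (Fin n) (Fin 2)).symm,
    Fintype.sum_prod_type, sum_mul_sum]
  refine sum_congr rfl fun yA _ => sum_congr rfl fun yB _ => ?_
  set v : Fin 4 ⊕ Fin n → ℕ := fun p => (finSumFinEquiv p : Fin (4 + n)) with hv
  have vl : ∀ a, v (Sum.inl a) = a := fun a => by simp [hv]
  have vr : ∀ b, v (Sum.inr b) = 4 + b := fun a => by simp [hv]
  have vL : ∀ p, p.isLeft ↔ v p < 4 := by
    rintro (a | b)
    · simp [vl]
    · simp [vr]
  have vinj : ∀ p q, v p = v q → p = q := fun p q h => finSumFinEquiv.injective (Fin.ext h)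
  unfold term
  change S (fun p => v p / 2) (fun p => v p % 2) (fun p => (Sum.elim xA xB p : Fin 2)) *
    S (fun p => (v p + 1) / 2) (fun p => v p % 2) (fun p => (Sum.elim yA yB p : Fin 2)) *
    S (fun p => v p / 4) (fun p => v p % 4)
      (fun p => 2 * (Sum.elim xA xB p : Fin 2) + (Sum.elim yA yB p : Fin 2)) = _
  rw [S_sum (fun p => v p / 2), S_sum (fun p => v p / 4)]
  · simp only [Function.comp_def, vl, vr, Sum.elim_inl, Sum.elim_inr]
    have m2 : (fun b : Fin n => (4 + (b : ℕ)) % 2) = fun b : Fin n => (b : ℕ) % 2 :=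
      funext fun b => by omega
    have m4 : (fun b : Fin n => (4 + (b : ℕ)) % 4) = fun b : Fin n => (b : ℕ) % 4 :=
      funext fun b => by omega
    rw [m2, m4, S_congr (c := fun b : Fin n => (4 + (b : ℕ)) / 2) (c' := fun b => b / 2)
      (fun p q => by omega), S_congr (c := fun b : Fin n => (4 + (b : ℕ)) / 4)
      (c' := fun b => b / 4) (fun p q => by omega)]
    by_cases hy : (yA 3 : ℕ) = 1
    · rw [S_sum (fun p => (v p + 1) / 2)]
      · simp only [Function.comp_def, vl, vr, Sum.elim_inl, Sum.elim_inr]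
        rw [m2, S_congr (c := fun b : Fin n => (4 + (b : ℕ) + 1) / 2) (c' := fun b => (b + 1) / 2)
          (fun p q => by omega)]
        ring
      · intro σ h1 h2 a
        have a1 := h1 (Sum.inl a)
        have a2 := h2 (Sum.inl a)
        rw [vL]
        simp only [vl, Sum.elim_inl] at a1 a2
        by_cases ha : a = 3
        · subst ha
          have : ((3 : Fin 4) : ℕ) = 3 := rfl
          omega
        · have : (a : ℕ) ≠ 3 := fun e => ha (Fin.ext e)
          omega
    · have z1 : S (fun a : Fin 4 => ((a : ℕ) + 1) / 2) (fun a => a % 2) (fun a => yA a) = 0 := by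
        by_contra hn
        obtain ⟨σ, h1, h2⟩ := S_ne_zero hn
        have a1 := h1 3
        have a2 := h2 3
        have : ((3 : Fin 4) : ℕ) = 3 := rfl
        omega
      rw [z1]
      by_cases z2 : S (fun a : Fin 4 => (a : ℕ) / 4) (fun a => a % 4)
          (fun a => 2 * xA a + yA a) = 0
      · rw [z2]; ring
      · obtain ⟨τ, _, t2⟩ := S_ne_zero z2
        have z3 : S (fun p => (v p + 1) / 2) (fun p => v p % 2)
            (fun p => (Sum.elim yA yB p : Fin 2)) = 0 := by
          by_contra hn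
          obtain ⟨σ, h1, h2⟩ := S_ne_zero hn
          have s1 : ∑ a : Fin 4, (yA a : ℕ) = ∑ a : Fin 4, (a : ℕ) % 2 := by
            rw [← Equiv.sum_comp τ (fun a : Fin 4 => (a : ℕ) % 2)]
            refine sum_congr rfl fun a _ => ?_
            have := t2 a
            omega
          simp only [Fin.sum_univ_four] at s1
          have a0 := h1 (Sum.inl 0)
          have a1 := h1 (Sum.inl 1)
          have a2 := h1 (Sum.inl 2)
          have b0 := h2 (Sum.inl 0)
          have b1 := h2 (Sum.inl 1)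
          have b2 := h2 (Sum.inl 2)
          have ne : v (σ (Sum.inl 1)) ≠ v (σ (Sum.inl 2)) := fun e => by
            simpa using σ.injective (vinj _ _ e)
          simp only [vl, Sum.elim_inl] at a0 a1 a2 b0 b1 b2
          have : ((3 : Fin 4) : ℕ) = 3 := rfl
          have : ((2 : Fin 4) : ℕ) = 2 := rfl
          have : ((1 : Fin 4) : ℕ) = 1 := rfl
          have : ((0 : Fin 4) : ℕ) = 0 := rfl
          omega
        rw [z3]; ring
  · intro σ h1 _ a
    have a1 := h1 (Sum.inl a)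
    rw [vL]
    simp only [vl] at a1
    omega
  · intro σ h1 _ a
    have a1 := h1 (Sum.inl a)
    rw [vL]
    simp only [vl] at a1
    omega

lemma kapN_odd (m : ℕ) : kapN (2 * m + 1) ≠ 0 := by
  induction m using Nat.strong_induction_on with
  | _ m ih =>
    match m with
    | 0 => rw [kapN_one]; norm_num
    | 1 => rw [kapN_three]; norm_num
    | m + 2 =>
      rw [show 2 * (m + 2) + 1 = 4 + (2 * m + 1) by ring, kapN_add, kapN_four]
      exact mul_ne_zero (by norm_num) (ih m (by omega))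

theorem good_band (m : ℕ) : Good (fun k : Fin (2 * m + 1) => k / 2) (fun k => k % 2)
    (fun k => (k + 1) / 2) (fun k => k % 2) (fun k => k / 4) (fun k => k % 4) :=
  Good.of_kap (kapN_odd m)

theorem good_diag (m : ℕ) : Good (fun k : Fin m => k) (fun _ => 0) (fun k => k) (fun _ => 0)
    (fun k => k) (fun _ => 0) := by
  refine ⟨fun _ => 0, fun _ => 0, fun _ => 0, ?_⟩
  have : S (fun k : Fin m => (k : ℕ)) (fun _ => 0) (fun _ => 0) = 1 := by
    unfold S
    rw [sum_eq_single 1]
    · simp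
    · intro σ _ hσ
      rw [if_neg]
      rintro ⟨h, _⟩
      exact hσ (Equiv.ext fun p => Fin.ext (h p))
    · simp
  unfold K
  simp only [Function.comp_def, this]
  simp [Fintype.card_ne_zero]

end Vale.Agent.P197
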