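import Mathlib

namespace Vale.Agent.P197

open Finset Equiv

section
variable {ι κ : Type} [Fintype ι] [DecidableEq ι] [Fintype κ] [DecidableEq κ]

/-- coefficient of the word `x` in the polytabloid with blocks `c` and letters `r` -/
def S (c r x : ι → ℕ) : ℤ :=
  ∑ σ : Perm ι, if (∀ p, c (σ p) = c p) ∧ (∀ p, x p = r (σ p)) then ((Perm.sign σ : ℤˣ) : ℤ) else 0

def K (c1 r1 c2 r2 c3 r3 x1 x2 x3 : ι → ℕ) : ℤ :=
  ∑ g : Perm ι, S c1 r1 (x1 ∘ g) * S c2 r2 (x2 ∘ g) * S c3 r3 (x3 ∘ g)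

def Good (c1 r1 c2 r2 c3 r3 : ι → ℕ) : Prop := ∃ x1 x2 x3, K c1 r1 c2 r2 c3 r3 x1 x2 x3 ≠ 0

lemma S_ne_zero {c r x : ι → ℕ} (h : S c r x ≠ 0) :
    ∃ σ : Perm ι, (∀ p, c (σ p) = c p) ∧ ∀ p, x p = r (σ p) := by
  obtain ⟨σ, _, hσ⟩ := exists_ne_zero_of_sum_ne_zero h
  exact ⟨σ, by by_contra hh; exact hσ (if_neg hh)⟩

lemma S_equiv (e : κ ≃ ι) (c r x : ι → ℕ) : S (c ∘ e) (r ∘ e) (x ∘ e) = S c r x := by
  unfold S
  rw [← Equiv.sum_comp e.permCongr]
  refine sum_congr rfl fun σ _ => ?_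
  rw [Perm.sign_permCongr]
  refine if_congr ?_ rfl rfl
  simp only [Function.comp, permCongr_apply]
  constructor
  · rintro ⟨h1, h2⟩
    exact ⟨fun p => by simpa using h1 (e.symm p), fun p => by simpa using h2 (e.symm p)⟩
  · rintro ⟨h1, h2⟩
    exact ⟨fun p => by simpa using h1 (e p), fun p => by simpa using h2 (e p)⟩

lemma K_equiv (e : κ ≃ ι) (c1 r1 c2 r2 c3 r3 x1 x2 x3 : ι → ℕ) :
    K (c1 ∘ e) (r1 ∘ e) (c2 ∘ e) (r2 ∘ e) (c3 ∘ e) (r3 ∘ e) (x1 ∘ e) (x2 ∘ e) (x3 ∘ e) =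
      K c1 r1 c2 r2 c3 r3 x1 x2 x3 := by
  unfold K
  rw [← Equiv.sum_comp e.permCongr]
  refine sum_congr rfl fun g _ => ?_
  have : ∀ x : ι → ℕ, (x ∘ e) ∘ g = (x ∘ e.permCongr g) ∘ e := fun x => by
    funext p; simp
  rw [this, this, this, S_equiv, S_equiv, S_equiv]

lemma Good.of_equiv (e : κ ≃ ι) {c1 r1 c2 r2 c3 r3 : ι → ℕ}
    (h : Good (c1 ∘ e) (r1 ∘ e) (c2 ∘ e) (r2 ∘ e) (c3 ∘ e) (r3 ∘ e)) :
    Good c1 r1 c2 r2 c3 r3 := by
  obtain ⟨x1, x2, x3, h⟩ := h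
  refine ⟨x1 ∘ e.symm, x2 ∘ e.symm, x3 ∘ e.symm, ?_⟩
  rw [← K_equiv e]
  simpa [Function.comp_def] using h

lemma S_congr {c c' : ι → ℕ} (h : ∀ p q, c p = c q ↔ c' p = c' q) (r x : ι → ℕ) :
    S c r x = S c' r x := by
  unfold S
  simp only [h]

lemma Good.congr {c1 r1 c2 r2 c3 r3 c1' c2' c3' : ι → ℕ} (H : Good c1 r1 c2 r2 c3 r3)
    (h1 : ∀ p q, c1 p = c1 q ↔ c1' p = c1' q) (h2 : ∀ p q, c2 p = c2 q ↔ c2' p = c2' q)
    (h3 : ∀ p q, c3 p = c3 q ↔ c3' p = c3' q) : Good c1' r1 c2' r2 c3' r3 := by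
  obtain ⟨x1, x2, x3, h⟩ := H
  refine ⟨x1, x2, x3, ?_⟩
  unfold K at *
  simpa only [S_congr h1, S_congr h2, S_congr h3] using h

lemma S_shift {c r : ι → ℕ} {w : ℕ} (h : ∀ p, w ≤ r p) (x : ι → ℕ) :
    S c r (fun p => x p + w) = S c (fun p => r p - w) x := by
  unfold S
  refine sum_congr rfl fun σ _ => if_congr (and_congr_right fun _ => forall_congr' fun p => ?_)
    rfl rfl
  have := h (σ p)
  beta_reduce
  omega

lemma S_right {c : ι → ℕ} (r x : ι → ℕ) {τ : Perm ι} (hτ : ∀ p, c (τ p) = c p) :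
    S c r (x ∘ τ) = ((Perm.sign τ : ℤˣ) : ℤ) * S c r x := by
  unfold S
  rw [← Equiv.sum_comp (Equiv.mulRight τ), mul_sum]
  refine sum_congr rfl fun σ _ => ?_
  simp only [coe_mulRight, Perm.coe_mul, Function.comp, Perm.sign_mul, Units.val_mul, mul_ite,
    mul_zero]
  refine if_congr ?_ (mul_comm _ _) rfl
  constructor
  · rintro ⟨h1, h2⟩
    refine ⟨fun p => ?_, fun p => by simpa using h2 (τ.symm p)⟩
    have := h1 (τ.symm p)
    rw [← hτ (τ.symm p)] at this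
    simpa using this
  · rintro ⟨h1, h2⟩
    exact ⟨fun p => by rw [h1, hτ], fun p => h2 _⟩

lemma S_relabel {c : ι → ℕ} (r x : ι → ℕ) {τ : Perm ι} (hτ : ∀ p, c (τ p) = c p) :
    S c r x = ((Perm.sign τ : ℤˣ) : ℤ) * S c (r ∘ τ) x := by
  unfold S
  rw [← Equiv.sum_comp (Equiv.mulLeft τ), mul_sum]
  refine sum_congr rfl fun σ _ => ?_
  simp only [coe_mulLeft, Perm.coe_mul, Function.comp, Perm.sign_mul, Units.val_mul, mul_ite,
    mul_zero, hτ]

lemma S_letters (φ : ℕ → ℕ) (c r x : ι → ℕ) :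
    S c (φ ∘ r) x = ∑ z ∈ Fintype.piFinset (fun _ : ι => univ.image r),
      if φ ∘ z = x then S c r z else 0 := by
  unfold S
  simp only [← sum_filter, ← Finset.sum_ite_irrel]
  symm
  rw [sum_comm' (t' := univ.filter fun σ : Perm ι =>
      (∀ p, c (σ p) = c p) ∧ ∀ p, x p = (φ ∘ r) (σ p)) (s' := fun σ => {r ∘ σ})]
  · simp
  · intro z σ
    simp only [mem_filter, Fintype.mem_piFinset, mem_image, mem_univ, true_and, mem_singleton,
      Function.comp]
    constructor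
    · rintro ⟨⟨_, h1⟩, h2, h3⟩
      refine ⟨funext h3, h2, fun p => ?_⟩
      rw [← h1, ← h3]; rfl
    · rintro ⟨rfl, h2, h3⟩
      exact ⟨⟨fun p => ⟨σ p, rfl⟩, funext fun p => (h3 p).symm⟩, h2, fun p => rfl⟩

lemma Good.letters (φ : ℕ → ℕ) {c1 r1 c2 r2 c3 r3 : ι → ℕ}
    (H : Good c1 r1 c2 r2 c3 (φ ∘ r3)) : Good c1 r1 c2 r2 c3 r3 := by
  obtain ⟨x1, x2, x3, h⟩ := H
  by_contra hn
  unfold Good at hn
  push Not at hn
  apply h
  have key : ∀ g : Perm ι, S c3 (φ ∘ r3) (x3 ∘ g) =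
      ∑ z ∈ Fintype.piFinset (fun _ : ι => univ.image r3),
        if φ ∘ z = x3 then S c3 r3 (z ∘ g) else 0 := by
    intro g
    rw [S_letters]
    symm
    refine sum_bij' (fun z _ => z ∘ g) (fun z _ => z ∘ g.symm) ?_ ?_ ?_ ?_ ?_
    · intro z hz
      simp only [Fintype.mem_piFinset] at hz ⊢
      exact fun p => hz _
    · intro z hz
      simp only [Fintype.mem_piFinset] at hz ⊢
      exact fun p => hz _
    · intro z _; funext p; simp
    · intro z _; funext p; simp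
    · intro z _
      refine if_congr ⟨fun e => by rw [← e]; rfl, fun e => funext fun p => ?_⟩ rfl rfl
      simpa using congrFun e (g.symm p)
  unfold K
  simp only [key, mul_sum]
  rw [sum_comm]
  refine sum_eq_zero fun z _ => ?_
  by_cases hz : φ ∘ z = x3
  · simp only [hz, if_true]; exact hn x1 x2 z
  · simp [hz]

lemma rigid (τ : ι → ℤ) (hne : ∀ p, τ p ≠ 0) (B : ι → Prop) [DecidablePred B]
    (h : ∑ p, (if B p then τ p else 0) = ∑ p, (if τ p < 0 then τ p else 0)) :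
    ∀ p, B p ↔ τ p < 0 := by
  intro p
  have hle : ∀ p ∈ (univ : Finset ι), (if τ p < 0 then τ p else 0) ≤ (if B p then τ p else 0) := by
    intro p _
    split_ifs <;> omega
  have := (sum_eq_sum_iff_of_le hle).1 h.symm p (mem_univ p)
  have := hne p
  split_ifs at * <;> simp_all <;> omega

end

section
variable {A B : Type} [Fintype A] [DecidableEq A] [Fintype B] [DecidableEq B]

lemma sum_perm_sum (F : Perm (A ⊕ B) → ℤ)
    (h : ∀ σ, F σ ≠ 0 → ∀ a, (σ (Sum.inl a)).isLeft) :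
    ∑ σ, F σ = ∑ σA : Perm A, ∑ σB : Perm B, F (Perm.sumCongr σA σB) := by
  rw [← Fintype.sum_prod_type']
  symm
  refine Fintype.sum_of_injective (Perm.sumCongrHom A B) Perm.sumCongrHom_injective _ _ ?_
    (fun _ => rfl)
  intro σ hσ
  by_contra hF
  apply hσ
  have := Perm.mem_sumCongrHom_range_of_perm_mapsTo_inl (σ := σ) (by
    rintro _ ⟨a, rfl⟩
    obtain ⟨a', e⟩ := Sum.isLeft_iff.1 (h σ hF a)
    exact ⟨a', e.symm⟩)
  exact this

lemma S_sum (c r x : A ⊕ B → ℕ)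
    (h : ∀ σ : Perm (A ⊕ B), (∀ p, c (σ p) = c p) → (∀ p, x p = r (σ p)) →
      ∀ a, (σ (Sum.inl a)).isLeft) :
    S c r x = S (c ∘ Sum.inl) (r ∘ Sum.inl) (x ∘ Sum.inl) *
      S (c ∘ Sum.inr) (r ∘ Sum.inr) (x ∘ Sum.inr) := by
  unfold S
  rw [sum_perm_sum, sum_mul_sum]
  · refine sum_congr rfl fun σA _ => sum_congr rfl fun σB _ => ?_
    rw [Perm.sign_sumCongr, Units.val_mul, ite_zero_mul_ite_zero]
    refine if_congr ?_ rfl rfl
    simp only [Sum.forall, Perm.sumCongr_apply, Sum.map_inl, Sum.map_inr, Function.comp]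
    tauto
  · intro σ hσ
    have : (∀ p, c (σ p) = c p) ∧ (∀ p, x p = r (σ p)) := by
      by_contra hh; exact hσ (if_neg hh)
    exact h σ this.1 this.2

lemma sum_isLeft (f : A ⊕ B → ℤ) :
    ∑ p, (if p.isLeft then f p else 0) = ∑ a, f (Sum.inl a) := by
  simp [Fintype.sum_sum_type]

theorem glue (i j d c r : A ⊕ B → ℕ) (w M : ℕ) (t : ℕ → ℕ)
    (hM : ∀ p, i p + j p + d p = M)
    (hA : ∀ a, w ≤ d (Sum.inl a)) (hB : ∀ b, d (Sum.inr b) < w)
    (tA : ∀ a, r (Sum.inl a) < t (c (Sum.inl a))) (tB : ∀ b, t (c (Sum.inr b)) ≤ r (Sum.inr b))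
    (GA : Good (j ∘ Sum.inl) (fun a => d (Sum.inl a) - w) (i ∘ Sum.inl)
      (fun a => d (Sum.inl a) - w) (c ∘ Sum.inl) (r ∘ Sum.inl))
    (GB : Good (j ∘ Sum.inr) (d ∘ Sum.inr) (i ∘ Sum.inr) (d ∘ Sum.inr) (c ∘ Sum.inr)
      (r ∘ Sum.inr)) : Good j d i d c r := by
  obtain ⟨x1, x2, x3, hx⟩ := GA
  obtain ⟨y1, y2, y3, hy⟩ := GB
  have dL : ∀ p, p.isLeft ↔ w ≤ d p := by
    rintro (a | b)
    · simpa using hA a
    · simpa using hB b
  have rL : ∀ p, p.isLeft ↔ r p < t (c p) := by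
    rintro (a | b)
    · simpa using tA a
    · simpa using tB b
  obtain ⟨g0, _, hg0⟩ := exists_ne_zero_of_sum_ne_zero hx
  obtain ⟨g1, _, hg1⟩ := exists_ne_zero_of_sum_ne_zero hy
  have y1w : ∀ b, y1 b < w := by
    obtain ⟨σ, _, h⟩ := S_ne_zero (left_ne_zero_of_mul (left_ne_zero_of_mul hg1))
    intro b
    have := h (g1.symm b)
    simp only [Function.comp, apply_symm_apply] at this
    rw [this]; exact hB _
  have y2w : ∀ b, y2 b < w := by
    obtain ⟨σ, _, h⟩ := S_ne_zero (right_ne_zero_of_mul (left_ne_zero_of_mul hg1))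
    intro b
    have := h (g1.symm b)
    simp only [Function.comp, apply_symm_apply] at this
    rw [this]; exact hB _
  have x3s : ∑ a, (x3 a : ℤ) = ∑ a, (r (Sum.inl a) : ℤ) := by
    obtain ⟨σ, _, h⟩ := S_ne_zero (right_ne_zero_of_mul hg0)
    rw [← Equiv.sum_comp g0, ← Equiv.sum_comp σ (fun a => (r (Sum.inl a) : ℤ))]
    exact sum_congr rfl fun a _ => by exact_mod_cast h a
  refine ⟨Sum.elim (fun a => x1 a + w) y1, Sum.elim (fun a => x2 a + w) y2, Sum.elim x3 y3, ?_⟩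
  have X1 : ∀ p, p.isLeft ↔ w ≤ Sum.elim (fun a => x1 a + w) y1 p := by
    rintro (a | b)
    · simp
    · simpa using y1w b
  have X2 : ∀ p, p.isLeft ↔ w ≤ Sum.elim (fun a => x2 a + w) y2 p := by
    rintro (a | b)
    · simp
    · simpa using y2w b
  unfold K at *
  rw [sum_perm_sum]
  · have e : ∀ (gA : Perm A) (gB : Perm B),
        S j d (Sum.elim (fun a => x1 a + w) y1 ∘ Perm.sumCongr gA gB) *
          S i d (Sum.elim (fun a => x2 a + w) y2 ∘ Perm.sumCongr gA gB) *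
          S c r (Sum.elim x3 y3 ∘ Perm.sumCongr gA gB) =
        (S (j ∘ Sum.inl) (fun a => d (Sum.inl a) - w) (x1 ∘ gA) *
          S (i ∘ Sum.inl) (fun a => d (Sum.inl a) - w) (x2 ∘ gA) *
          S (c ∘ Sum.inl) (r ∘ Sum.inl) (x3 ∘ gA)) *
        (S (j ∘ Sum.inr) (d ∘ Sum.inr) (y1 ∘ gB) * S (i ∘ Sum.inr) (d ∘ Sum.inr) (y2 ∘ gB) *
          S (c ∘ Sum.inr) (r ∘ Sum.inr) (y3 ∘ gB)) := by
      intro gA gB
      rw [S_sum j, S_sum i, S_sum c, ← S_shift (r := fun a => d (Sum.inl a)) hA,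
        ← S_shift (r := fun a => d (Sum.inl a)) hA]
      · simp only [Function.comp_def, Perm.sumCongr_apply, Sum.map_inl, Sum.map_inr, Sum.elim_inl,
          Sum.elim_inr]
        ring
      · intro σ h1 h2 a
        have key := rigid (fun p => 2 * (r p : ℤ) - 2 * t (c p) + 1) (fun p => by omega)
          (fun p => (σ.symm p).isLeft) (by
            rw [← Equiv.sum_comp σ]
            simp only [symm_apply_apply, h1]
            rw [sum_isLeft (fun p => 2 * (r (σ p) : ℤ) - 2 * t (c p) + 1)]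
            have e1 : ∀ p, (2 * (r p : ℤ) - 2 * t (c p) + 1 < 0) ↔ p.isLeft := fun p => by
              rw [rL]; omega
            simp only [e1]
            rw [sum_isLeft (fun p => 2 * (r p : ℤ) - 2 * t (c p) + 1)]
            simp only [sum_add_distrib, sum_sub_distrib, ← mul_sum, ← h2]
            rw [← x3s, ← Equiv.sum_comp gA (fun a => (x3 a : ℤ))]
            rfl) (σ (Sum.inl a))
        rw [rL]
        have := key.1 (by simp)
        omega
      · intro σ _ h2 a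
        rw [dL, ← h2]; simp
      · intro σ _ h2 a
        rw [dL, ← h2]; simp
    simp only [e]
    rw [← sum_mul_sum]
    exact mul_ne_zero hx hy
  · intro g hg a
    obtain ⟨σ, s1, s2⟩ := S_ne_zero (left_ne_zero_of_mul (left_ne_zero_of_mul hg))
    obtain ⟨τ, t1, t2⟩ := S_ne_zero (right_ne_zero_of_mul (left_ne_zero_of_mul hg))
    have gσ : ∀ p, (g p).isLeft ↔ (σ p).isLeft := fun p => by rw [X1, dL, ← s2]; rfl
    have gτ : ∀ p, (g p).isLeft ↔ (τ p).isLeft := fun p => by rw [X2, dL, ← t2]; rfl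
    have key := rigid (fun p => 2 * (w : ℤ) - 2 * d p - 1) (fun p => by omega)
      (fun p => (g p).isLeft) (by
        have e1 : ∀ p, (2 * (w : ℤ) - 2 * d p - 1 < 0) ↔ p.isLeft := fun p => by
          rw [dL]; omega
        have e2 : ∀ (Q : A ⊕ B → Prop) [DecidablePred Q],
            ∑ p, (if Q p then 2 * (w : ℤ) - 2 * d p - 1 else 0) =
            ∑ p, (if Q p then 2 * (w : ℤ) - 2 * M - 1 + 2 * j p else 0) +
              ∑ p, (if Q p then 2 * (i p : ℤ) else 0) := by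
          intro Q _
          rw [← sum_add_distrib]
          refine sum_congr rfl fun p _ => ?_
          have := hM p
          split_ifs <;> omega
        simp only [e1]
        rw [e2, e2]
        congr 1
        · rw [← Equiv.sum_comp σ (fun p => if p.isLeft then 2 * (w : ℤ) - 2 * M - 1 + 2 * j p
            else 0)]
          simp only [gσ, s1]
        · rw [← Equiv.sum_comp τ (fun p => if p.isLeft then 2 * (i p : ℤ) else 0)]
          simp only [gτ, t1]) (Sum.inl a)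
    rw [key]
    have := hA a
    omega

end

end Vale.Agent.P197
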