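import Vale.Agent.P197.Thin
import Vale.Agent.P197.Band

namespace Vale.Agent.P197

open Finset Equiv

structure Stair {ι : Type} (m : ℕ) (i j : ι → ℕ) : Prop where
  inj : ∀ p q, i p = i q → j p = j q → p = q
  lt : ∀ p, i p + j p < m
  surj : ∀ a b, a + b < m → ∃ p, i p = a ∧ j p = b

structure Packed {κ : Type} (c r : κ → ℕ) : Prop where
  inj : ∀ p q, c p = c q → r p = r q → p = q
  down : ∀ p k, k < r p → ∃ q, c q = c p ∧ r q = k

def P (m : ℕ) : Prop :=
  ∀ (ι κ : Type) [Fintype ι] [DecidableEq ι] [Fintype κ] [DecidableEq κ] (i j : ι → ℕ)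
    (c r : κ → ℕ), Stair m i j → Packed c r → Fintype.card ι = Fintype.card κ →
    ∃ e : ι ≃ κ, Good j (fun p => m - 1 - i p - j p) i (fun p => m - 1 - i p - j p)
      (c ∘ e) (r ∘ e)

lemma exists_split {ι B : Type} (f : B → ι) (hf : Function.Injective f) :
    ∃ e : {p // p ∉ Set.range f} ⊕ B ≃ ι, (∀ a, e (Sum.inl a) = a) ∧ ∀ b, e (Sum.inr b) = f b := by
  refine ⟨Equiv.ofBijective (Sum.elim Subtype.val f) ⟨?_, ?_⟩, fun _ => rfl, fun _ => rfl⟩
  · exact Function.Injective.sumElim Subtype.val_injective hf fun a b e => a.2 ⟨b, e.symm⟩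
  · intro p
    by_cases h : p ∈ Set.range f
    · obtain ⟨b, rfl⟩ := h
      exact ⟨Sum.inr b, rfl⟩
    · exact ⟨Sum.inl ⟨p, h⟩, rfl⟩

section
variable {ι κ : Type} [Fintype ι] [DecidableEq ι] [Fintype κ] [DecidableEq κ]

lemma strip {m w : ℕ} (hP : P m) {i j : ι → ℕ} {c r : κ → ℕ} (hS : Stair (m + w) i j)
    (hK : Packed c r) (hcard : Fintype.card ι = Fintype.card κ) {B : Type} [Fintype B]
    [DecidableEq B] (f1 : B → ι) (f3 : B → κ) (h1 : Function.Injective f1)
    (h3 : Function.Injective f3) (r1 : ∀ p, p ∈ Set.range f1 ↔ m ≤ i p + j p) (t : ℕ → ℕ)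
    (tA : ∀ q, q ∉ Set.range f3 → r q < t (c q)) (tB : ∀ b, t (c (f3 b)) ≤ r (f3 b))
    (GB : Good (j ∘ f1) (fun b => m + w - 1 - i (f1 b) - j (f1 b)) (i ∘ f1)
      (fun b => m + w - 1 - i (f1 b) - j (f1 b)) (c ∘ f3) (r ∘ f3)) :
    ∃ e : ι ≃ κ, Good j (fun p => m + w - 1 - i p - j p) i (fun p => m + w - 1 - i p - j p)
      (c ∘ e) (r ∘ e) := by
  classical
  obtain ⟨e1, a1, b1⟩ := exists_split f1 h1
  obtain ⟨e3, a3, b3⟩ := exists_split f3 h3
  have c1 := Fintype.card_congr e1
  have c3 := Fintype.card_congr e3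
  rw [Fintype.card_sum] at c1 c3
  obtain ⟨eA, GA⟩ := hP {p // p ∉ Set.range f1} {p // p ∉ Set.range f3} (fun p => i p)
    (fun p => j p) (fun p => c p) (fun p => r p)
    ⟨fun p q a b => Subtype.ext (hS.inj _ _ a b), fun p => by
      have := mt (r1 p).2 p.2
      omega, fun a b hab => by
      obtain ⟨p, h, h'⟩ := hS.surj a b (by omega)
      exact ⟨⟨p, by rw [r1]; omega⟩, h, h'⟩⟩
    ⟨fun p q a b => Subtype.ext (hK.inj _ _ a b), fun p k hk => by
      obtain ⟨q, h, h'⟩ := hK.down p k hk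
      refine ⟨⟨q, ?_⟩, h, h'⟩
      rintro ⟨b, rfl⟩
      have := tB b
      have := tA p p.2
      rw [h] at *
      omega⟩ (by omega)
  refine ⟨e1.symm.trans ((eA.sumCongr (Equiv.refl B)).trans e3), Good.of_equiv e1 ?_⟩
  refine glue (i ∘ e1) (j ∘ e1) _ _ _ w (m + w - 1) t ?_ ?_ ?_ ?_ ?_ ?_ ?_
  · intro p
    have := hS.lt (e1 p)
    simp only [Function.comp]
    omega
  · intro a
    have := mt (r1 a).2 a.2
    simp only [Function.comp, a1]
    omega
  · intro b
    have := (r1 (f1 b)).1 ⟨b, rfl⟩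
    have := hS.lt (f1 b)
    simp only [Function.comp, b1]
    omega
  · intro a
    simpa [a3] using tA _ (eA a).2
  · intro b
    simpa [b3] using tB b
  · have e : ∀ a : {p // p ∉ Set.range f1}, m + w - 1 - i a - j a - w = m - 1 - i a - j a :=
      fun a => by omega
    simpa [Function.comp_def, a1, a3, e] using GA
  · simpa [Function.comp_def, b1, b3] using GB

lemma Packed.image_card {c r : κ → ℕ} (hK : Packed c r) (k : ℕ) :
    ((univ.filter (c · = k)).image r).card = hgt c k :=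
  card_image_of_injOn fun p hp q hq e => hK.inj p q (by
    simp only [coe_filter, mem_univ, true_and, Set.mem_ofPred_eq] at hp hq; omega) e

lemma Packed.lt {c r : κ → ℕ} (hK : Packed c r) (p : κ) : r p < hgt c (c p) := by
  rw [← hK.image_card]
  have : range (r p + 1) ⊆ (univ.filter (c · = c p)).image r := by
    intro k hk
    simp only [mem_image, mem_filter, mem_univ, true_and]
    rcases Nat.lt_succ_iff_lt_or_eq.1 (mem_range.1 hk) with h | h
    · exact hK.down p k h
    · exact ⟨p, rfl, h.symm⟩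
  simpa using card_le_card this

lemma Packed.ex {c r : κ → ℕ} (hK : Packed c r) {k0 k : ℕ} (h : k < hgt c k0) :
    ∃ q, c q = k0 ∧ r q = k := by
  by_contra hn
  have : (univ.filter (c · = k0)).image r ⊆ range k := by
    intro x hx
    simp only [mem_image, mem_filter, mem_univ, true_and] at hx
    obtain ⟨p, h1, rfl⟩ := hx
    rw [mem_range]
    by_contra hh
    rcases Nat.lt_or_eq_of_le (not_lt.1 hh) with h2 | h2
    · exact hn (h1 ▸ hK.down p k h2)
    · exact hn ⟨p, h1, h2.symm⟩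
  have := card_le_card this
  rw [hK.image_card, card_range] at this
  omega

lemma exists_cols {h : ℕ → ℕ} {M r n : ℕ} (hn : n ≤ nn h M r) :
    ∃ col : Fin n → ℕ, Function.Injective col ∧ ∀ k, r < h (col k) := by
  obtain ⟨f, hf⟩ := Function.Embedding.exists_of_card_le_finset (α := Fin n)
    (s := (range M).filter fun k => r < h k) (by simpa [nn] using hn)
  exact ⟨f, f.injective, fun k => (mem_filter.1 (hf ⟨k, rfl⟩)).2⟩

lemma case_one {m M : ℕ} (hP : P m) {i j : ι → ℕ} {c r : κ → ℕ} (hS : Stair (m + 1) i j)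
    (hK : Packed c r) (hcard : Fintype.card ι = Fintype.card κ)
    (hn : m + 1 ≤ nn (hgt c) M 0) :
    ∃ e : ι ≃ κ, Good j (fun p => m + 1 - 1 - i p - j p) i (fun p => m + 1 - 1 - i p - j p)
      (c ∘ e) (r ∘ e) := by
  classical
  obtain ⟨col, hcol, hh⟩ := exists_cols hn
  choose f1 i1 j1 using fun k : Fin (m + 1) => hS.surj (m - k) k (by omega)
  choose f3 c3 r3 using fun k : Fin (m + 1) =>
    hK.ex (k0 := col k) (k := hgt c (col k) - 1) (by have := hh k; omega)
  refine strip hP hS hK hcard f1 f3 (fun a b e => Fin.ext (by rw [← j1, e, j1]))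
    (fun a b e => hcol (by rw [← c3, e, c3])) ?_
    (fun k => if k ∈ Set.range col then hgt c k - 1 else hgt c k) ?_ ?_ ?_
  · intro p
    constructor
    · rintro ⟨k, rfl⟩
      rw [i1, j1]; omega
    · intro h
      have := hS.lt p
      exact ⟨⟨j p, by omega⟩, hS.inj _ _ (by rw [i1]; dsimp only; omega) (j1 _)⟩
  · intro q hq
    have := hK.lt q
    beta_reduce
    split_ifs with h
    · obtain ⟨k, hk⟩ := h
      by_contra hh
      exact hq ⟨k, hK.inj _ _ (by rw [c3, hk]) (by rw [r3, hk]; omega)⟩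
    · exact this
  · intro b
    beta_reduce
    rw [c3, if_pos ⟨b, rfl⟩, r3]
  · refine Good.letters (fun _ => 0) ?_
    have : (fun b => m + 1 - 1 - i (f1 b) - j (f1 b)) = fun _ => 0 := funext fun b => by
      rw [i1, j1]; omega
    rw [this]
    refine (good_diag (m + 1)).congr (fun p q => ?_) (fun p q => ?_) (fun p q => ?_)
    · simp [j1]
    · simp only [Function.comp, i1]; omega
    · simp only [Function.comp, c3, hcol.eq_iff, Fin.ext_iff]

lemma case_two {m M : ℕ} (hP : P m) {i j : ι → ℕ} {c r : κ → ℕ} (hS : Stair (m + 2) i j)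
    (hK : Packed c r) (hcard : Fintype.card ι = Fintype.card κ)
    (hn : (2 * m + 3) / 4 + 1 ≤ nn (hgt c) M 3) :
    ∃ e : ι ≃ κ, Good j (fun p => m + 2 - 1 - i p - j p) i (fun p => m + 2 - 1 - i p - j p)
      (c ∘ e) (r ∘ e) := by
  classical
  obtain ⟨col, hcol, hh⟩ := exists_cols hn
  let last : Fin ((2 * m + 3) / 4 + 1) := Fin.last _
  let blk : Fin (2 * (m + 1) + 1) → Fin ((2 * m + 3) / 4 + 1) := fun k => ⟨k / 4, by omega⟩
  have hb : ∀ k, (blk k : ℕ) = k / 4 := fun _ => rfl
  have hl : (last : ℕ) = (2 * m + 3) / 4 := rfl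
  obtain ⟨s, hs⟩ : ∃ s, s = 3 * hgt c (col last) + (2 * m + 3) % 4 := ⟨_, rfl⟩
  choose f1 i1 j1 using fun k : Fin (2 * (m + 1) + 1) =>
    hS.surj (m + 1 - (k + 1) / 2) (k / 2) (by omega)
  choose f3 c3 r3 using fun k : Fin (2 * (m + 1) + 1) =>
    hK.ex (k0 := col (blk k))
      (k := hgt c (col (blk k)) - 4 + (k % 4 + 3 * (hgt c (col (blk k)) + s)) % 4)
      (by have := hh (blk k); omega)
  have r4 : ∀ k, (r (f3 k) + s) % 4 = k % 4 := fun k => by
    have := hh (blk k)
    rw [r3]; omega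
  refine strip hP hS hK hcard f1 f3 (fun a b e => Fin.ext ?_) (fun a b e => Fin.ext ?_) ?_
    (fun k => if k = col last then hgt c k - (2 * m + 3) % 4 else
      if k ∈ Set.range col then hgt c k - 4 else hgt c k) ?_ ?_ ?_
  · have a1 := i1 a
    have a2 := j1 a
    rw [e, i1] at a1
    rw [e, j1] at a2
    omega
  · have a1 := c3 a
    have a2 := r4 a
    rw [e, c3] at a1
    rw [e, r4] at a2
    have := congrArg Fin.val (hcol a1)
    rw [hb, hb] at this
    omega
  · intro p
    constructor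
    · rintro ⟨k, rfl⟩
      rw [i1, j1]; omega
    · intro h
      have := hS.lt p
      exact ⟨⟨2 * j p + (m + 1 - i p - j p), by omega⟩,
        hS.inj _ _ (by rw [i1]; dsimp only; omega) (by rw [j1]; dsimp only; omega)⟩
  · intro q hq
    have hlt := hK.lt q
    by_contra hcon
    have : ∃ b, col b = c q ∧ 4 * (b : ℕ) + (r q + s) % 4 < 2 * (m + 1) + 1 ∧
        hgt c (c q) - 4 ≤ r q := by
      beta_reduce at hcon
      split_ifs at hcon with h1 h2
      · have := hh last
        rw [← h1] at this hs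
        exact ⟨last, h1.symm, by omega, by omega⟩
      · obtain ⟨b, hb'⟩ := h2
        have : (b : ℕ) ≠ last := fun e => h1 (by rw [← hb', Fin.ext e])
        exact ⟨b, hb', by omega, by omega⟩
      · omega
    obtain ⟨b, e1, e2, e3⟩ := this
    have e4 : blk ⟨_, e2⟩ = b := Fin.ext (by rw [hb]; dsimp only; omega)
    have := hh b
    refine hq ⟨⟨_, e2⟩, hK.inj _ _ (by rw [c3, e4, e1]) ?_⟩
    rw [r3, e4, e1]
    rw [e1] at this
    dsimp only
    omega
  · intro k
    beta_reduce
    have := hh (blk k)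
    rw [c3, r3]
    split_ifs with h1 h2
    · have e := congrArg Fin.val (hcol h1)
      rw [hb, hl] at e
      rw [← h1] at hs
      omega
    · omega
    · exact absurd ⟨_, rfl⟩ h2
  · refine Good.letters (fun x => (x + s) % 4) ?_
    have e1 : (fun b => m + 2 - 1 - i (f1 b) - j (f1 b)) =
        fun k : Fin (2 * (m + 1) + 1) => (k : ℕ) % 2 :=
      funext fun b => by rw [i1, j1]; omega
    have e2 : (fun x => (x + s) % 4) ∘ r ∘ f3 =
        fun k : Fin (2 * (m + 1) + 1) => (k : ℕ) % 4 := funext r4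
    rw [e1, e2]
    refine (good_band (m + 1)).congr (fun p q => ?_) (fun p q => ?_) (fun p q => ?_)
    · simp [j1]
    · simp only [Function.comp, i1]; omega
    · simp only [Function.comp, c3, hcol.eq_iff, Fin.ext_iff, hb]

lemma Stair.hgt {m : ℕ} {i j : ι → ℕ} (hS : Stair m i j) (k : ℕ) : hgt j k = m - k := by
  have hK : Packed j i := ⟨fun p q a b => hS.inj p q b a, fun p k hk => by
    obtain ⟨q, h1, h2⟩ := hS.surj k (j p) (by have := hS.lt p; omega)
    exact ⟨q, h2, h1⟩⟩
  refine le_antisymm ?_ ?_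
  · by_contra hn
    obtain ⟨q, h1, h2⟩ := hK.ex (not_le.1 hn)
    have := hS.lt q
    omega
  · by_contra hn
    obtain ⟨q, h1, h2⟩ := hS.surj (m - k - 1) k (by omega)
    have := hK.lt q
    rw [h2] at this
    omega

lemma Stair.card {m : ℕ} {i j : ι → ℕ} (hS : Stair m i j) : Fintype.card ι = Rm m m := by
  rw [← sum_hgt (c := j) (M := m) (fun p => by have := hS.lt p; omega)]
  exact sum_congr rfl fun k _ => hS.hgt k

lemma nn_anti (h : ℕ → ℕ) (M : ℕ) {r r' : ℕ} (hr : r ≤ r') : nn h M r' ≤ nn h M r :=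
  card_le_card fun k hk => by
    simp only [mem_filter] at hk ⊢
    exact ⟨hk.1, by omega⟩

lemma two_Rm (m r : ℕ) (h : r ≤ m) : 2 * (Rm m r : ℤ) = r * (2 * m + 1 - r) := by
  induction r with
  | zero => simp [Rm]
  | succ r ih =>
    rw [Rm_succ, Nat.cast_add, Nat.cast_sub (by omega), mul_add, ih (by omega)]
    push_cast; ring

lemma dominated {h : ℕ → ℕ} {M m : ℕ} (htot : ∑ k ∈ range M, h k = Rm m m)
    (h0 : nn h M 0 < m) (h3 : 2 * nn h M 3 < m) (r : ℕ) : Sm h M r ≤ Rm m r := by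
  have a1 := nn_anti h M (show 0 ≤ 1 by omega)
  have a2 := nn_anti h M (show 0 ≤ 2 by omega)
  have z : Sm h M 0 = 0 := by simp [Sm]
  have z' : Rm m 0 = 0 := by simp [Rm]
  have s1 := Sm_succ h M 0
  have s2 := Sm_succ h M 1
  have s3 := Sm_succ h M 2
  have t1 := Rm_succ m 0
  have t2 := Rm_succ m 1
  have t3 := Rm_succ m 2
  norm_num at s1 s2 s3 t1 t2 t3
  by_cases hr : r ≤ 3
  · interval_cases r <;> omega
  by_cases hm : m ≤ r
  · rw [Rm_big m r hm, ← htot]
    exact sum_le_sum fun k _ => min_le_left _ _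
  have : ∀ r, 3 ≤ r → 2 * (Sm h M r : ℤ) ≤ (r + 3) * (m - 1) := by
    intro r hr
    induction r, hr using Nat.le_induction with
    | base => push_cast; omega
    | succ r hr ih =>
      have := nn_anti h M hr
      rw [Sm_succ]
      push_cast
      have : 2 * (nn h M r : ℤ) ≤ m - 1 := by omega
      linarith
  have b1 := this r (by omega)
  have b2 := two_Rm m r (by omega)
  have b3 : (0 : ℤ) ≤ (r - 3) * (m - r - 1) := mul_nonneg (by omega) (by omega)
  have : (Sm h M r : ℤ) ≤ Rm m r := by nlinarith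
  exact_mod_cast this

lemma case_thin {m M : ℕ} {i j : ι → ℕ} {c r : κ → ℕ} (hS : Stair m i j)
    (hK : Packed c r) (hcard : Fintype.card ι = Fintype.card κ) (hM : m ≤ M) (hc : ∀ p, c p < M)
    (h0 : nn (hgt c) M 0 < m) (h3 : 2 * nn (hgt c) M 3 < m) :
    ∃ e : ι ≃ κ, Good j (fun p => m - 1 - i p - j p) i (fun p => m - 1 - i p - j p)
      (c ∘ e) (r ∘ e) := by
  let e0 : ι ≃ κ := Fintype.equivOfCardEq hcard
  choose g g1 g2 using fun p => hS.surj (i p) (m - 1 - i p - j p) (by have := hS.lt p; omega)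
  have hg : Function.Involutive g := fun p => hS.inj _ _ (by rw [g1, g1]) (by
    have := hS.lt p
    rw [g2, g1, g2]; omega)
  have he : hgt (c ∘ e0) = hgt c := funext fun k => by
    unfold hgt
    exact card_equiv e0 (by simp)
  obtain ⟨π, hπ⟩ := good_thin (i := i) (j := j) (d := fun p => m - 1 - i p - j p) (c := c ∘ e0)
    (r := r ∘ e0) (M0 := m - 1) (M := M) (m := m) (fun p => by have := hS.lt p; omega) hS.inj
    hg.toPerm g1 (fun p => by
      have := hS.lt p
      simp only [Function.Involutive.coe_toPerm, g1, g2]; omega) hM hS.hgt hS.card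
    (fun p q a b => e0.injective (hK.inj _ _ a b)) (fun p => hc _) (by
      rw [he]
      exact dominated (by rw [sum_hgt hc, ← hcard, hS.card]) h0 h3)
  exact ⟨π.trans e0, hπ⟩

end

theorem all_P (m : ℕ) : P m := by
  induction m using Nat.strong_induction_on with
  | _ m ih =>
    intro ι κ _ _ _ _ i j c r hS hK hcard
    obtain ⟨M, hM, hc⟩ : ∃ M, m ≤ M ∧ ∀ p, c p < M :=
      ⟨m + univ.sup c + 1, by omega, fun p => by
        have := le_sup (f := c) (mem_univ p)
        omega⟩
    match m with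
    | 0 =>
      haveI : IsEmpty ι := ⟨fun p => by have := hS.lt p; omega⟩
      refine ⟨Fintype.equivOfCardEq hcard, fun _ => 0, fun _ => 0, fun _ => 0, ?_⟩
      simp [K, S]
    | m + 1 =>
      by_cases h0 : m + 1 ≤ nn (hgt c) M 0
      · exact case_one (ih m (by omega)) hS hK hcard h0
      by_cases h3 : 2 * nn (hgt c) M 3 < m + 1
      · exact case_thin hS hK hcard hM hc (by omega) h3
      match m with
      | 0 =>
        have := nn_anti (hgt c) M (show 0 ≤ 3 by omega)
        omega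
      | m + 1 => exact case_two (M := M) (ih m (by omega)) hS hK hcard (by omega)

end Vale.Agent.P197
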