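import Vale.Agent.P197.Defs
import Vale.Agent.P197.Induct

namespace Vale.Agent.P197

open Finset Equiv TensorProduct

variable {n : ℕ}

lemma wordRep_apply (g : Perm (Fin n)) (f : (Fin n → ℕ) →₀ ℂ) (x : Fin n → ℕ) :
    wordRep n g f x = f (x ∘ g) := by
  have hinj : Function.Injective fun x : Fin n → ℕ => x ∘ g.symm := fun a b h => by
    funext k; simpa using congrFun h (g k)
  have := Finsupp.mapDomain_apply hinj f (x ∘ g)
  simpa [wordRep, Function.comp_def] using this

lemma polytabloid_apply {μ : YoungDiagram} (t : Fin n ≃ μ.cells) (x : Fin n → ℕ) :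
    polytabloid t x = (S (fun k => (t k).1.2) (fun k => (t k).1.1) x : ℤ) := by
  unfold polytabloid S
  rw [Finsupp.finset_sum_apply, sum_filter, Int.cast_sum, ← Equiv.sum_comp (Equiv.inv _)]
  refine sum_congr rfl fun σ _ => ?_
  rw [Finsupp.smul_apply, wordRep_apply, tabloid, Finsupp.single_apply, Equiv.inv_apply,
    Perm.sign_inv]
  have e1 : (∀ k, (t (σ⁻¹ k)).1.2 = (t k).1.2) ↔ ∀ k, (t (σ k)).1.2 = (t k).1.2 :=
    ⟨fun h k => by simpa using (h (σ k)).symm, fun h k => by simpa using (h (σ⁻¹ k)).symm⟩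
  have e2 : ((fun k => (t k).1.1) = x ∘ ⇑(σ⁻¹)) ↔ ∀ k, x k = (t (σ k)).1.1 :=
    ⟨fun h k => by simpa using (congrFun h (σ k)).symm,
      fun h => funext fun k => by simpa using (h (σ⁻¹ k)).symm⟩
  by_cases a : ∀ k, (t (σ k)).1.2 = (t k).1.2
  · rw [if_pos (e1.2 a)]
    by_cases b : ∀ k, x k = (t (σ k)).1.1
    · rw [if_pos (e2.2 b), if_pos ⟨a, b⟩]; simp
    · rw [if_neg (mt e2.1 b), if_neg (fun h => b h.2)]; simp
  · rw [if_neg (mt e1.1 a), if_neg (fun h => a h.1)]; simp

/-- the standard bilinear form -/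
noncomputable def form (f : (Fin n → ℕ) →₀ ℂ) : ((Fin n → ℕ) →₀ ℂ) →ₗ[ℂ] ℂ :=
  Finsupp.linearCombination ℂ f

lemma form_rep (g : Perm (Fin n)) (f q : (Fin n → ℕ) →₀ ℂ) :
    form (wordRep n g f) (wordRep n g q) = form f q := by
  induction q using Finsupp.induction_linear with
  | zero => simp
  | add a b ha hb => simp only [map_add, ha, hb]
  | single x c =>
    have : wordRep n g (Finsupp.single x c) = Finsupp.single (x ∘ g.symm) c := by simp [wordRep]
    rw [this]
    simp [form, wordRep_apply, Function.comp_def]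

lemma form_sum {α : Type} (s : Finset α) (a : α → ℂ) (f : α → (Fin n → ℕ) →₀ ℂ)
    (q : (Fin n → ℕ) →₀ ℂ) : form (∑ i ∈ s, a i • f i) q = ∑ i ∈ s, a i * form (f i) q := by
  induction q using Finsupp.induction_linear with
  | zero => simp
  | add a b ha hb => simp only [map_add, ha, hb, mul_add, sum_add_distrib]
  | single x c =>
    simp only [form, Finsupp.linearCombination_single, Finsupp.finset_sum_apply,
      Finsupp.smul_apply, smul_eq_mul, mul_sum]
    exact sum_congr rfl fun i _ => by ring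

lemma form_self {y : (Fin n → ℕ) →₀ ℂ} (Y : (Fin n → ℕ) → ℤ) (hY : ∀ x, y x = Y x) {x0}
    (h0 : Y x0 ≠ 0) : form y y ≠ 0 := by
  have : form y y = ((∑ x ∈ y.support, Y x * Y x : ℤ) : ℂ) := by
    simp [form, Finsupp.linearCombination_apply, Finsupp.sum, hY]
  rw [this, Int.cast_ne_zero]
  refine (sum_pos' (fun x _ => mul_self_nonneg _) ⟨x0, ?_, mul_self_pos.2 h0⟩).ne'
  rw [Finsupp.mem_support_iff, hY]
  exact_mod_cast h0

instance (μ : YoungDiagram) : Module.Finite ℂ (specht n μ).toSubmodule :=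
  Module.Finite.span_of_finite ℂ (Set.finite_range _)

/-- a polytabloid as an element of the Specht module -/
noncomputable def pt {μ : YoungDiagram} (t : Fin n ≃ μ.cells) : (specht n μ).toSubmodule :=
  ⟨polytabloid t, Submodule.subset_span ⟨t, rfl⟩⟩

lemma finrank_pos_of {G V W : Type} [Group G] [AddCommMonoid V] [AddCommMonoid W] [Module ℂ V]
    [Module ℂ W] [Module.Finite ℂ V] [Module.Finite ℂ W] (ρ : Representation ℂ G V)
    (σ : Representation ℂ G W) (Φ : Representation.IntertwiningMap ρ σ) (h : Φ ≠ 0) :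
    0 < Module.finrank ℂ (Representation.IntertwiningMap ρ σ) := by
  letI : AddCommGroup V := Module.addCommMonoidToAddCommGroup ℂ
  letI : AddCommGroup W := Module.addCommMonoidToAddCommGroup ℂ
  haveI : Nontrivial (Representation.IntertwiningMap ρ σ) := ⟨Φ, 0, h⟩
  exact Module.finrank_pos

theorem kronecker_pos {l μ ν : YoungDiagram} (t1 : Fin n ≃ l.cells) (t2 : Fin n ≃ μ.cells)
    (t3 : Fin n ≃ ν.cells)
    (H : Good (fun k => (t1 k).1.2) (fun k => (t1 k).1.1) (fun k => (t2 k).1.2)
      (fun k => (t2 k).1.1) (fun k => (t3 k).1.2) (fun k => (t3 k).1.1)) :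
    0 < kronecker n l μ ν := by
  obtain ⟨x1, x2, x3, H⟩ := H
  set A := (specht n l).toRepresentation
  set B := (specht n μ).toRepresentation
  set C := (specht n ν).toRepresentation
  let φ : (specht n ν).toSubmodule →ₗ[ℂ] (specht n l).toSubmodule ⊗[ℂ] (specht n μ).toSubmodule :=
    ∑ g : Perm (Fin n), ((form (wordRep n g (polytabloid t3))) ∘ₗ
      (specht n ν).toSubmodule.subtype).smulRight (A g (pt t1) ⊗ₜ B g (pt t2))
  have hφ : ∀ q, φ q = ∑ g : Perm (Fin n),
      form (wordRep n g (polytabloid t3)) q • (A g (pt t1) ⊗ₜ B g (pt t2)) := fun q => by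
    simp [φ]
  let Φ : Representation.IntertwiningMap C (A.tprod B) :=
    φ.intertwiningMap_of_isIntertwiningMap C (A.tprod B) fun h q => by
      rw [hφ, hφ, map_sum, ← Equiv.sum_comp (Equiv.mulLeft h)]
      refine sum_congr rfl fun g _ => ?_
      have : ((C h q : (specht n ν).toSubmodule) : (Fin n → ℕ) →₀ ℂ) = wordRep n h q := rfl
      simp only [coe_mulLeft, map_mul, Module.End.mul_apply, this, form_rep, map_smul,
        Representation.tprod_apply, TensorProduct.map_tmul]
  let ev : ∀ (d : YoungDiagram) (x : Fin n → ℕ), (specht n d).toSubmodule →ₗ[ℂ] ℂ :=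
    fun d x => Finsupp.lapply x ∘ₗ (specht n d).toSubmodule.subtype
  let a : Perm (Fin n) → ℤ := fun g => S (fun k => (t1 k).1.2) (fun k => (t1 k).1.1) (x1 ∘ g) *
    S (fun k => (t2 k).1.2) (fun k => (t2 k).1.1) (x2 ∘ g)
  let y : (specht n ν).toSubmodule := ∑ g : Perm (Fin n), (a g : ℂ) • C g (pt t3)
  have hy : (y : (Fin n → ℕ) →₀ ℂ) = ∑ g : Perm (Fin n), (a g : ℂ) • wordRep n g (polytabloid t3) := by
    simp only [y, Submodule.coe_sum, Submodule.coe_smul]
    rfl
  have hy0 : form (y : (Fin n → ℕ) →₀ ℂ) y ≠ 0 := by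
    refine form_self (fun x => ∑ g : Perm (Fin n),
      a g * S (fun k => (t3 k).1.2) (fun k => (t3 k).1.1) (x ∘ g)) (fun x => ?_) (x0 := x3) H
    rw [hy, Finsupp.finset_sum_apply, Int.cast_sum]
    refine sum_congr rfl fun g _ => ?_
    rw [Finsupp.smul_apply, wordRep_apply, polytabloid_apply]
    simp
  have hΦ : Φ ≠ 0 := by
    intro h
    apply hy0
    have h1 : φ y = 0 := by
      have : Φ y = 0 := by rw [h]; rfl
      exact this
    have h2 := congrArg (TensorProduct.lift ((LinearMap.mul ℂ ℂ).compl₁₂ (ev l x1) (ev μ x2))) h1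
    rw [hφ, map_sum, map_zero] at h2
    nth_rewrite 1 [hy]
    rw [form_sum, ← h2]
    refine sum_congr rfl fun g _ => ?_
    have e1 : ev l x1 (A g (pt t1)) = wordRep n g (polytabloid t1) x1 := rfl
    have e2 : ev μ x2 (B g (pt t2)) = wordRep n g (polytabloid t2) x2 := rfl
    rw [map_smul, TensorProduct.lift.tmul, LinearMap.compl₁₂_apply, LinearMap.mul_apply', e1, e2,
      wordRep_apply, wordRep_apply, polytabloid_apply, polytabloid_apply]
    simp only [a, Int.cast_mul, smul_eq_mul]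
    ring
  exact finrank_pos_of (V := (specht n ν).toSubmodule)
    (W := (specht n l).toSubmodule ⊗[ℂ] (specht n μ).toSubmodule) C (A.tprod B) Φ hΦ

lemma mem_stair {m : ℕ} {p : ℕ × ℕ} : p ∈ (staircase m).cells ↔ p.1 + p.2 < m := by
  simp only [staircase, mem_filter, mem_product, mem_range]
  omega

lemma stair_stair (m : ℕ) :
    Stair m (fun p : (staircase m).cells => p.1.1) (fun p => p.1.2) :=
  ⟨fun p q a b => Subtype.ext (Prod.ext a b), fun p => mem_stair.1 p.2,
    fun a b h => ⟨⟨(a, b), mem_stair.2 h⟩, rfl, rfl⟩⟩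

def refl1 (m : ℕ) : (staircase m).cells ≃ (staircase m).cells where
  toFun p := ⟨(m - 1 - p.1.1 - p.1.2, p.1.2), mem_stair.2 (by have := mem_stair.1 p.2; omega)⟩
  invFun p := ⟨(m - 1 - p.1.1 - p.1.2, p.1.2), mem_stair.2 (by have := mem_stair.1 p.2; omega)⟩
  left_inv p := Subtype.ext (Prod.ext (by have := mem_stair.1 p.2; dsimp only; omega) rfl)
  right_inv p := Subtype.ext (Prod.ext (by have := mem_stair.1 p.2; dsimp only; omega) rfl)

def refl2 (m : ℕ) : (staircase m).cells ≃ (staircase m).cells where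
  toFun p := ⟨(m - 1 - p.1.1 - p.1.2, p.1.1), mem_stair.2 (by have := mem_stair.1 p.2; omega)⟩
  invFun p := ⟨(p.1.2, m - 1 - p.1.1 - p.1.2), mem_stair.2 (by have := mem_stair.1 p.2; omega)⟩
  left_inv p := Subtype.ext (Prod.ext rfl (by have := mem_stair.1 p.2; dsimp only; omega))
  right_inv p := Subtype.ext (Prod.ext (by have := mem_stair.1 p.2; dsimp only; omega) rfl)

theorem saxl (m : ℕ) (ν : YoungDiagram) (hν : ν.card = m * (m + 1) / 2) :
    0 < kronecker (m * (m + 1) / 2) (staircase m) (staircase m) ν := by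
  have hc : Fintype.card (staircase m).cells = m * (m + 1) / 2 := by
    rw [(stair_stair m).card]
    have := two_Rm m m le_rfl
    have e : 2 * Rm m m = m * (m + 1) := by
      have : (2 * Rm m m : ℤ) = m * (m + 1) := by rw [this]; ring
      exact_mod_cast this
    omega
  obtain ⟨e, he⟩ := all_P m (staircase m).cells ν.cells _ _ (fun p => p.1.2) (fun p => p.1.1)
    (stair_stair m)
    ⟨fun p q a b => Subtype.ext (Prod.ext b a), fun p k hk =>
      ⟨⟨(k, p.1.2), ν.up_left_mem hk.le le_rfl p.2⟩, rfl, rfl⟩⟩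
    (by rw [hc, Fintype.card_coe]; exact hν.symm)
  let e0 : Fin (m * (m + 1) / 2) ≃ (staircase m).cells := (Fintype.equivFinOfCardEq hc).symm
  refine kronecker_pos (e0.trans (refl1 m)) (e0.trans (refl2 m)) (e0.trans e)
    (Good.of_equiv e0.symm ?_)
  simpa [Function.comp_def, refl1, refl2] using he

end Vale.Agent.P197
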