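import Mathlib

namespace Vale.Agent.P197

open Equiv

/-- The permutation representation of `S_n` on the free vector space on words `Fin n → ℕ`. -/
noncomputable def wordRep (n : ℕ) : Representation ℂ (Perm (Fin n)) ((Fin n → ℕ) →₀ ℂ) where
  toFun g := Finsupp.lmapDomain ℂ ℂ (fun x => x ∘ g.symm)
  map_one' := by ext x; simp [Perm.one_def]
  map_mul' g h := by ext x; simp [Perm.mul_def, Function.comp_def]

/-- The tabloid of a tableau `t`, recorded as the word giving the row of each entry. -/
noncomputable def tabloid {n : ℕ} {μ : YoungDiagram} (t : Fin n ≃ μ.cells) : (Fin n → ℕ) →₀ ℂ :=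
  Finsupp.single (fun k => (t k).1.1) 1

/-- The polytabloid of a tableau: the signed sum of the tabloid over the column stabiliser. -/
noncomputable def polytabloid {n : ℕ} {μ : YoungDiagram} (t : Fin n ≃ μ.cells) :
    (Fin n → ℕ) →₀ ℂ :=
  ∑ σ ∈ Finset.univ.filter (fun σ : Perm (Fin n) => ∀ k, (t (σ k)).1.2 = (t k).1.2),
    ((Perm.sign σ : ℤ) : ℂ) • wordRep n σ (tabloid t)

theorem wordRep_polytabloid {n : ℕ} {μ : YoungDiagram} (g : Perm (Fin n)) (t : Fin n ≃ μ.cells) :
    wordRep n g (polytabloid t) = polytabloid (g.symm.trans t) := by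
  unfold polytabloid
  rw [map_sum]
  refine Finset.sum_bij' (fun σ _ => g * σ * g⁻¹) (fun σ _ => g⁻¹ * σ * g) ?_ ?_ ?_ ?_ ?_
  · intro σ h
    simp only [Finset.mem_filter, Finset.mem_univ, true_and] at h ⊢
    intro k
    simpa using h (g.symm k)
  · intro σ h
    simp only [Finset.mem_filter, Finset.mem_univ, true_and] at h ⊢
    intro k
    simpa using h (g k)
  · intro σ _; group
  · intro σ _; group
  · intro σ _
    have : tabloid (g.symm.trans t) = wordRep n g (tabloid t) := by
      simp [tabloid, wordRep, Function.comp_def]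
    have hs : Perm.sign (g * σ * g⁻¹) = Perm.sign σ := by
      rw [map_mul, map_mul, mul_right_comm, ← map_mul, mul_inv_cancel, map_one, one_mul]
    rw [this, hs, map_smul, ← Module.End.mul_apply, ← Module.End.mul_apply, ← map_mul, ← map_mul]
    simp

/-- The Specht module of shape `μ`: the span of all polytabloids of shape `μ`. -/
noncomputable def specht (n : ℕ) (μ : YoungDiagram) : Subrepresentation (wordRep n) where
  toSubmodule := Submodule.span ℂ (Set.range fun t : Fin n ≃ μ.cells => polytabloid t)
  apply_mem_toSubmodule g v hv := by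
    refine Submodule.span_induction (fun v h => ?_) ?_ (fun a b _ _ ha hb => ?_)
      (fun a b _ hb => ?_) hv
    · obtain ⟨t, rfl⟩ := h
      exact Submodule.subset_span ⟨_, (wordRep_polytabloid g t).symm⟩
    · simp
    · rw [map_add]; exact Submodule.add_mem _ ha hb
    · rw [map_smul]; exact Submodule.smul_mem _ _ hb

/-- The Kronecker coefficient `g(l, μ, ν) = dim Hom_{S_n}(S^ν, S^l ⊗ S^μ)`. -/
noncomputable def kronecker (n : ℕ) (l μ ν : YoungDiagram) : ℕ :=
  Module.finrank ℂ (Representation.IntertwiningMap (specht n ν).toRepresentation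
    ((specht n l).toRepresentation.tprod (specht n μ).toRepresentation))

/-- The staircase diagram with rows of lengths `m, m - 1, …, 1`. -/
def staircase (m : ℕ) : YoungDiagram where
  cells := (Finset.range m ×ˢ Finset.range m).filter fun p => p.1 + p.2 < m
  isLowerSet := by
    rintro ⟨a, b⟩ ⟨c, d⟩ ⟨h1, h2⟩ h
    simp only [Finset.coe_filter, Finset.mem_product, Finset.mem_range, Set.mem_ofPred_eq] at *
    omega

end Vale.Agent.P197
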