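import Vale.Agent.P197.Basic

namespace Vale.Agent.P197

open Finset Equiv

variable {ι : Type} [Fintype ι] [DecidableEq ι]

def Anti (c : ι → ℕ) (w : Perm ι → ℤ) : Prop :=
  ∀ a b, a ≠ b → c a = c b → ∀ g, w (g * swap a b) = - w g

lemma Anti.full {c : ι → ℕ} {w : Perm ι → ℤ} (H : Anti c w) (τ : Perm ι)
    (hτ : ∀ p, c (τ p) = c p) (g : Perm ι) : w (g * τ) = ((Perm.sign τ : ℤˣ) : ℤ) * w g := by
  induction hn : τ.support.card using Nat.strong_induction_on generalizing τ g with
  | _ n ih =>
    by_cases h1 : τ = 1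
    · simp [h1]
    · obtain ⟨p, hp⟩ : ∃ p, τ p ≠ p := by
        by_contra hh
        push Not at hh
        exact h1 (Equiv.ext hh)
      have hlt := Perm.card_support_swap_mul hp
      have h2 := ih _ (hn ▸ hlt) (swap p (τ p) * τ) (fun q => by
        rw [Perm.mul_apply, swap_apply_def]
        split_ifs with a b
        · rw [hτ, ← a, hτ]
        · rw [← hτ q, b, hτ]
        · exact hτ q) (g * swap p (τ p)) rfl
      rw [mul_assoc, ← mul_assoc (swap p (τ p)), swap_mul_self, one_mul,
        H p (τ p) hp.symm (hτ p).symm, Perm.sign_mul, Perm.sign_swap hp.symm] at h2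
      rw [h2]; simp

def asym (w : Perm ι → ℤ) (x : ι) (Q : Finset ι) (g : Perm ι) : ℤ :=
  w g - ∑ y ∈ Q, w (g * swap x y)

lemma asym_swap {c : ι → ℕ} {w : Perm ι → ℤ} (H : Anti c w) {x y : ι} {k : ℕ} (hx : c x ≠ k)
    (hy : c y = k) (g : Perm ι) :
    asym w x (univ.filter (c · = k)) (g * swap x y) = - asym w x (univ.filter (c · = k)) g := by
  unfold asym
  have hm : y ∈ univ.filter (c · = k) := by simp [hy]
  rw [← add_sum_erase _ _ hm, ← add_sum_erase _ _ hm, mul_assoc, swap_mul_self, mul_one]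
  have : ∑ y' ∈ (univ.filter (c · = k)).erase y, w (g * swap x y * swap x y') =
      - ∑ y' ∈ (univ.filter (c · = k)).erase y, w (g * swap x y') := by
    rw [← sum_neg_distrib]
    refine sum_congr rfl fun y' hy' => ?_
    simp only [mem_erase, mem_filter, mem_univ, true_and] at hy'
    have e : swap x y * swap x y' = swap x y' * swap y' y := by
      rw [mul_swap_eq_swap_mul (swap x y') y' y, swap_apply_right,
        swap_apply_of_ne_of_ne (by rintro rfl; exact hx hy) hy'.1.symm]
    rw [mul_assoc, e, ← mul_assoc, H y' y hy'.1 (by rw [hy'.2, hy])]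
  rw [this]; ring

lemma asym_other {c : ι → ℕ} {w : Perm ι → ℤ} (H : Anti c w) {x a b : ι} (k : ℕ) (hab : a ≠ b)
    (ha : x ≠ a) (hb : x ≠ b) (hc : c a = c b) (g : Perm ι) :
    asym w x (univ.filter (c · = k)) (g * swap a b) = - asym w x (univ.filter (c · = k)) g := by
  unfold asym
  have hs : ∀ y, c (swap a b y) = c y := fun y => by
    rw [swap_apply_def]; split_ifs with h1 h2
    · rw [h1, hc]
    · rw [h2, hc]
    · rfl
  have : ∑ y ∈ univ.filter (c · = k), w (g * swap a b * swap x y) =
      - ∑ y ∈ univ.filter (c · = k), w (g * swap x y) := by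
    rw [← sum_neg_distrib]
    refine sum_bij' (fun y _ => swap a b y) (fun y _ => swap a b y) ?_ ?_ ?_ ?_ ?_
    · intro y hy; simpa [hs] using hy
    · intro y hy; simpa [hs] using hy
    · intro y _; simp
    · intro y _; simp
    · intro y _
      rw [mul_assoc, mul_swap_eq_swap_mul, swap_apply_of_ne_of_ne ha hb, ← mul_assoc,
        H a b hab hc]
  rw [this, H a b hab hc]; ring

lemma ip_swap (f f' : Perm ι → ℤ) (x y : ι) :
    ∑ g, f g * f' (g * swap x y) = ∑ g, f (g * swap x y) * f' g := by
  rw [← Equiv.sum_comp (Equiv.mulRight (swap x y))]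
  simp [mul_assoc]

lemma asym_nonneg {c : ι → ℕ} {w : Perm ι → ℤ} (H : Anti c w) {x : ι} {k : ℕ} (hx : c x ≠ k) :
    ∑ y ∈ univ.filter (c · = k), ∑ g, w g * w (g * swap x y) ≤ ∑ g, w g * w g := by
  set Q := univ.filter (c · = k) with hQ
  have h1 : ∑ g, asym w x Q g * asym w x Q g = (Q.card + 1 : ℤ) * ∑ g, asym w x Q g * w g := by
    have : ∀ g, asym w x Q g * asym w x Q g =
        asym w x Q g * w g - ∑ y ∈ Q, asym w x Q g * w (g * swap x y) := fun g => by
      rw [← mul_sum, ← mul_sub]; rfl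
    simp only [this, sum_sub_distrib]
    rw [sum_comm]
    have : ∀ y ∈ Q, ∑ g, asym w x Q g * w (g * swap x y) = - ∑ g, asym w x Q g * w g := by
      intro y hy
      rw [ip_swap, ← sum_neg_distrib]
      refine sum_congr rfl fun g _ => ?_
      rw [asym_swap H hx (by simpa [hQ] using hy)]; ring
    rw [sum_congr rfl this]
    simp; ring
  have h2 : 0 ≤ ∑ g, asym w x Q g * asym w x Q g := sum_nonneg fun g _ => mul_self_nonneg _
  rw [h1] at h2
  have h3 : 0 ≤ ∑ g, asym w x Q g * w g := nonneg_of_mul_nonneg_right h2 (by positivity) |> id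
  have h4 : ∑ g, asym w x Q g * w g =
      ∑ g, w g * w g - ∑ y ∈ Q, ∑ g, w g * w (g * swap x y) := by
    rw [sum_comm, ← sum_sub_distrib]
    refine sum_congr rfl fun g _ => ?_
    unfold asym
    rw [← mul_sum]; ring
  linarith

def hgt (c : ι → ℕ) (k : ℕ) : ℕ := (univ.filter (c · = k)).card

lemma move (N : AddSubgroup (Perm ι → ℤ)) (hN : ∀ f ∈ N, ∀ h, (fun g => f (g * h)) ∈ N)
    {c : ι → ℕ} {w : Perm ι → ℤ} (hw : w ∈ N) (h0 : w ≠ 0) (H : Anti c w) {k1 k2 : ℕ}
    (hk : hgt c k2 < hgt c k1) :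
    ∃ x, c x = k1 ∧ ∃ w' ∈ N, w' ≠ 0 ∧ Anti (Function.update c x k2) w' := by
  have hne : k1 ≠ k2 := by rintro rfl; omega
  have : ∃ x, c x = k1 ∧ asym w x (univ.filter (c · = k2)) ≠ 0 := by
    by_contra hn
    push Not at hn
    have hpos : 0 < ∑ g, w g * w g := by
      obtain ⟨g, hg⟩ := Function.ne_iff.1 h0
      exact sum_pos' (fun g _ => mul_self_nonneg _) ⟨g, mem_univ _, mul_self_pos.2 hg⟩
    have h1 : ∀ x ∈ univ.filter (c · = k1),
        ∑ y ∈ univ.filter (c · = k2), ∑ g, w g * w (g * swap x y) = ∑ g, w g * w g := by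
      intro x hx
      rw [sum_comm]
      refine sum_congr rfl fun g _ => ?_
      have := congrFun (hn x (by simpa using hx)) g
      unfold asym at this
      rw [← mul_sum, ← sub_eq_zero.1 this]
    have h2 : ∀ y ∈ univ.filter (c · = k2),
        ∑ x ∈ univ.filter (c · = k1), ∑ g, w g * w (g * swap x y) ≤ ∑ g, w g * w g := by
      intro y hy
      simp only [swap_comm _ y]
      exact asym_nonneg H (by simp only [mem_filter] at hy; omega)
    have h3 := sum_le_sum h2
    rw [sum_comm, sum_congr rfl h1] at h3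
    simp only [sum_const, nsmul_eq_mul] at h3
    have := le_of_mul_le_mul_right h3 hpos
    unfold hgt at hk
    omega
  obtain ⟨x, hx, hu⟩ := this
  refine ⟨x, hx, _, ?_, hu, ?_⟩
  · have : asym w x (univ.filter (c · = k2)) =
        w - ∑ y ∈ univ.filter (c · = k2), fun g => w (g * swap x y) := by
      funext g; simp [asym]
    rw [this]
    exact N.sub_mem hw (N.sum_mem fun y _ => hN w hw _)
  · intro a b hab hc g
    by_cases ha : x = a
    · subst ha
      rw [Function.update_self, Function.update_of_ne hab.symm] at hc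
      exact asym_swap H (by omega) hc.symm g
    · by_cases hb : x = b
      · subst hb
        rw [Function.update_self, Function.update_of_ne hab] at hc
        rw [swap_comm]
        exact asym_swap H (by omega) hc g
      · rw [Function.update_of_ne (Ne.symm ha), Function.update_of_ne (Ne.symm hb)] at hc
        exact asym_other H k2 hab ha hb hc g

lemma hgt_update {c : ι → ℕ} {x : ι} {k2 : ℕ} (hne : c x ≠ k2) (k : ℕ) :
    hgt (Function.update c x k2) k + (if k = c x then 1 else 0) =
      hgt c k + (if k = k2 then 1 else 0) := by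
  unfold hgt
  simp only [card_filter]
  rw [← add_sum_erase _ _ (mem_univ x), ← add_sum_erase _ (fun p => if c p = k then 1 else 0)
    (mem_univ x), Function.update_self]
  have : ∑ p ∈ univ.erase x, (if Function.update c x k2 p = k then 1 else 0) =
      ∑ p ∈ univ.erase x, (if c p = k then 1 else 0) :=
    sum_congr rfl fun p hp => by rw [Function.update_of_ne (ne_of_mem_erase hp)]
  rw [this]
  split_ifs <;> omega

def Sm (h : ℕ → ℕ) (M r : ℕ) : ℕ := ∑ k ∈ range M, min (h k) r

def Rm (m r : ℕ) : ℕ := ∑ k ∈ range r, (m - k)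

def nn (h : ℕ → ℕ) (M r : ℕ) : ℕ := ((range M).filter fun k => r < h k).card

lemma Sm_succ (h : ℕ → ℕ) (M r : ℕ) : Sm h M (r + 1) = Sm h M r + nn h M r := by
  unfold Sm nn
  rw [card_filter, ← sum_add_distrib]
  exact sum_congr rfl fun k _ => by split_ifs <;> omega

lemma Rm_succ (m r : ℕ) : Rm m (r + 1) = Rm m r + (m - r) := sum_range_succ _ _

lemma Rm_big (m r : ℕ) (h : m ≤ r) : Rm m r = Rm m m := by
  induction r, h using Nat.le_induction with
  | base => rfl
  | succ r h ih => rw [Rm_succ, ih]; omega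

lemma nn_succ (h : ℕ → ℕ) (M r : ℕ) :
    nn h M r = nn h M (r + 1) + ((range M).filter fun k => h k = r + 1).card := by
  unfold nn
  simp only [card_filter]
  rw [← sum_add_distrib]
  exact sum_congr rfl fun k _ => by split_ifs <;> omega

lemma nn_zero (h : ℕ → ℕ) (M : ℕ) :
    M = nn h M 0 + ((range M).filter fun k => h k = 0).card := by
  unfold nn
  simp only [card_filter]
  rw [← sum_add_distrib]
  calc M = ∑ k ∈ range M, 1 := by simp
    _ = _ := sum_congr rfl fun k _ => by split_ifs <;> omega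

lemma sum_two {h h' : ℕ → ℕ} {M k1 k2 : ℕ} (h1 : k1 < M) (h2 : k2 < M) (hne : k1 ≠ k2)
    (ho : ∀ k, k ≠ k1 → k ≠ k2 → h' k = h k) (F : ℕ → ℕ) :
    ∑ k ∈ range M, F (h' k) + F (h k1) + F (h k2) =
      ∑ k ∈ range M, F (h k) + F (h' k1) + F (h' k2) := by
  have m1 : k1 ∈ range M := mem_range.2 h1
  have m2 : k2 ∈ (range M).erase k1 := mem_erase.2 ⟨hne.symm, mem_range.2 h2⟩
  rw [← add_sum_erase _ _ m1, ← add_sum_erase _ _ m2, ← add_sum_erase _ (fun k => F (h k)) m1,
    ← add_sum_erase _ (fun k => F (h k)) m2]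
  have : ∑ k ∈ ((range M).erase k1).erase k2, F (h' k) =
      ∑ k ∈ ((range M).erase k1).erase k2, F (h k) :=
    sum_congr rfl fun k hk => by
      simp only [mem_erase] at hk
      rw [ho k hk.2.1 hk.1]
  rw [this]; omega

lemma find_move {h : ℕ → ℕ} {M m : ℕ} (hM : m ≤ M) (hle : ∀ r, Sm h M r ≤ Rm m r)
    (htot : ∑ k ∈ range M, h k = Rm m m) (hne : ∃ r, Sm h M r ≠ Rm m r) :
    ∃ k1 < M, ∃ k2 < M, h k2 + 1 < h k1 ∧ ∀ r, h k2 < r → r < h k1 → Sm h M r < Rm m r := by
  classical
  have hne' : ∃ i, Sm h M (i + 1) ≠ Rm m (i + 1) := by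
    obtain ⟨r, hr⟩ := hne
    cases r with
    | zero => simp [Sm, Rm] at hr
    | succ r => exact ⟨r, hr⟩
  set i := Nat.find hne' with hi
  have i1 := Nat.find_spec hne'
  have i2 : ∀ r ≤ i, Sm h M r = Rm m r := by
    intro r hr
    cases r with
    | zero => simp [Sm, Rm]
    | succ r => exact not_not.1 (Nat.find_min hne' (by omega))
  rw [← hi] at i1
  have hj' : ∃ j, i < j ∧ Sm h M (j + 1) = Rm m (j + 1) := by
    refine ⟨i + m + Rm m m + 1, by omega, ?_⟩
    rw [Rm_big m (i + m + Rm m m + 1 + 1) (by omega)]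
    refine Eq.trans (sum_congr rfl fun k hk => ?_) htot
    have := single_le_sum (f := h) (fun _ _ => Nat.zero_le _) hk
    omega
  set j := Nat.find hj' with hj
  have j1 := Nat.find_spec hj'
  rw [← hj] at j1
  have j2 : ∀ r, i < r → r ≤ j → Sm h M r < Rm m r := by
    intro r h1 h2
    refine lt_of_le_of_ne (hle r) ?_
    obtain ⟨r, rfl⟩ : ∃ r', r = r' + 1 := ⟨r - 1, by omega⟩
    by_cases e : r = i
    · rw [e]; exact i1
    · exact fun hh => Nat.find_min hj' (by omega : r < j) ⟨by omega, hh⟩
  have ni : nn h M i < m - i := by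
    have := j2 (i + 1) (by omega) (by omega)
    rw [Sm_succ, Rm_succ, i2 i le_rfl] at this
    omega
  obtain ⟨k2, hk2⟩ : ((range M).filter fun k => h k = i).Nonempty := by
    rw [← card_pos]
    rcases Nat.eq_zero_or_pos i with e | e
    · rw [e] at ni ⊢
      have := nn_zero h M
      omega
    · obtain ⟨i', e'⟩ : ∃ i', i = i' + 1 := ⟨i - 1, by omega⟩
      have a1 := i2 (i' + 1) (by omega)
      rw [Sm_succ, Rm_succ, i2 i' (by omega)] at a1
      have := nn_succ h M i'
      rw [e'] at ni ⊢
      omega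
  obtain ⟨k1, hk1⟩ : ((range M).filter fun k => h k = j + 1).Nonempty := by
    rw [← card_pos]
    have a1 := j2 j j1.1 le_rfl
    have a2 := j1.2
    have a3 := hle (j + 1 + 1)
    rw [Sm_succ, Rm_succ, a2] at a3
    rw [Sm_succ, Rm_succ] at a2
    have := nn_succ h M j
    omega
  simp only [mem_filter, mem_range] at hk1 hk2
  exact ⟨k1, hk1.1, k2, hk2.1, by omega, fun r a b => j2 r (by omega) (by omega)⟩

lemma sum_hgt {c : ι → ℕ} {M : ℕ} (hc : ∀ p, c p < M) :
    ∑ k ∈ range M, hgt c k = Fintype.card ι := by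
  unfold hgt
  rw [← card_eq_sum_card_fiberwise (s := univ) (fun p _ => by simpa using hc p), card_univ]

lemma hgt_pos (c : ι → ℕ) (p : ι) : 0 < hgt c (c p) := card_pos.2 ⟨p, by simp⟩

lemma final_perm {c j : ι → ℕ} {M m : ℕ} (hc : ∀ p, c p < M)
    (he : ∀ r, Sm (hgt c) M r = Rm m r) (hj : ∀ k, hgt j k = m - k) :
    ∃ π : Perm ι, ∀ p q, j p = j q → c (π p) = c (π q) := by
  have n1 : ∀ r, nn (hgt c) M r = m - r := fun r => by
    have := he (r + 1)
    rw [Sm_succ, Rm_succ, he r] at this
    omega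
  have n2 : ∀ t, ((range M).filter fun k => hgt c k = t + 1).card = (m - t) - (m - (t + 1)) :=
    fun t => by
      have := nn_succ (hgt c) M t
      rw [n1, n1] at this
      omega
  have uq : ∀ k k', k < M → k' < M → 0 < hgt c k → hgt c k = hgt c k' → k = k' := by
    intro k k' h1 h2 h3 h4
    obtain ⟨t, ht⟩ : ∃ t, hgt c k = t + 1 := ⟨hgt c k - 1, by omega⟩
    refine card_le_one.1 (show ((range M).filter fun k => hgt c k = t + 1).card ≤ 1 by
      rw [n2]; omega) k ?_ k' ?_
    · simp [h1, ht]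
    · simp [h2, ← h4, ht]
  have le : ∀ p, hgt c (c p) ≤ m := by
    intro p
    by_contra hh
    have : c p ∈ (range M).filter fun k => m < hgt c k := by simp [hc p]; omega
    have := card_pos.2 ⟨_, this⟩
    have := n1 m
    unfold nn at this
    omega
  have fib : ∀ k, hgt (fun p => m - hgt c (c p)) k = m - k := by
    intro k
    by_cases hk : k < m
    · obtain ⟨k0, hk0⟩ : ((range M).filter fun k' => hgt c k' = (m - k - 1) + 1).Nonempty := by
        rw [← card_pos, n2]; omega
      simp only [mem_filter, mem_range] at hk0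
      have : hgt (fun p => m - hgt c (c p)) k = hgt c k0 := by
        refine congrArg card (filter_congr fun p _ => ⟨fun e => ?_, fun e => ?_⟩)
        · have := le p
          beta_reduce at e
          exact uq _ _ (hc p) hk0.1 (hgt_pos c p) (by omega)
        · beta_reduce
          rw [e]; omega
      omega
    · rw [show m - k = 0 by omega]
      refine card_eq_zero.2 (filter_eq_empty_iff.2 fun p _ => ?_)
      have := hgt_pos c p
      have := le p
      beta_reduce
      omega
  let π : Perm ι := Equiv.ofFiberEquiv (f := j) (g := fun p => m - hgt c (c p)) fun k =>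
    Fintype.equivOfCardEq (by
      rw [Fintype.card_subtype, Fintype.card_subtype]
      exact (hj k).trans (fib k).symm)
  refine ⟨π, fun p q hpq => ?_⟩
  have e : ∀ p, m - hgt c (c (π p)) = j p := fun p =>
    Equiv.ofFiberEquiv_map (f := j) (g := fun p => m - hgt c (c p)) _ p
  have a1 := e p
  have a2 := e q
  have := le (π p)
  have := le (π q)
  exact uq _ _ (hc _) (hc _) (hgt_pos c _) (by omega)

theorem anti_stair (N : AddSubgroup (Perm ι → ℤ)) (hN : ∀ f ∈ N, ∀ h, (fun g => f (g * h)) ∈ N)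
    {j : ι → ℕ} {M m : ℕ} (hM : m ≤ M) (hj : ∀ k, hgt j k = m - k)
    (hcard : Fintype.card ι = Rm m m)
    {c : ι → ℕ} (hc : ∀ p, c p < M) (hle : ∀ r, Sm (hgt c) M r ≤ Rm m r)
    {w : Perm ι → ℤ} (hw : w ∈ N) (h0 : w ≠ 0) (H : Anti c w) :
    ∃ w' ∈ N, w' ≠ 0 ∧ Anti j w' := by
  induction hn : ∑ k ∈ range M, hgt c k ^ 2 using Nat.strong_induction_on generalizing c w with
  | _ n ih =>
    by_cases he : ∀ r, Sm (hgt c) M r = Rm m r
    · obtain ⟨π, hπ⟩ := final_perm hc he hj
      refine ⟨fun g => w (g * π⁻¹), hN w hw _, ?_, ?_⟩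
      · obtain ⟨g, hg⟩ := Function.ne_iff.1 h0
        exact Function.ne_iff.2 ⟨g * π, by simpa using hg⟩
      · intro a b hab hjab g
        have := H (π a) (π b) (fun e => hab (π.injective e)) (hπ a b hjab) (g * π⁻¹)
        beta_reduce
        rw [← this, mul_assoc, mul_assoc, mul_swap_eq_swap_mul]
        simp
    · push Not at he
      obtain ⟨k1, h1, k2, h2, hlt, hr⟩ := find_move hM hle (by rw [sum_hgt hc, hcard]) he
      obtain ⟨x, hx, w', hw', h0', H'⟩ := move N hN hw h0 H (k1 := k1) (k2 := k2) (by omega)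
      have hne : k1 ≠ k2 := by rintro rfl; omega
      have hu := hgt_update (c := c) (x := x) (k2 := k2) (by omega)
      rw [hx] at hu
      have u1 := hu k1
      have u2 := hu k2
      rw [if_pos rfl, if_neg hne] at u1
      rw [if_neg hne.symm, if_pos rfl] at u2
      have u3 : ∀ k, k ≠ k1 → k ≠ k2 → hgt (Function.update c x k2) k = hgt c k := by
        intro k a b
        simpa [a, b] using hu k
      refine ih _ ?_ (c := Function.update c x k2) ?_ ?_ hw' h0' H' rfl
      · have := sum_two h1 h2 hne u3 (fun t => t ^ 2)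
        rw [← hn]
        have e1 : hgt c k1 = hgt (Function.update c x k2) k1 + 1 := by omega
        have e2 : hgt (Function.update c x k2) k2 = hgt c k2 + 1 := by omega
        rw [e2, e1] at this
        rw [e1] at hlt
        nlinarith
      · intro p
        rw [Function.update_apply]
        split_ifs
        · exact h2
        · exact hc p
      · intro r
        have := sum_two h1 h2 hne u3 (fun t => min t r)
        have a1 := hle r
        have a2 := hr r
        unfold Sm at *
        omega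

end Vale.Agent.P197
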