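import Vale.Agent.P197.Moves

namespace Vale.Agent.P197

open Finset Equiv

variable {ι : Type} [Fintype ι] [DecidableEq ι]

lemma delta_zero {i j d : ι → ℕ} {M : ℕ} (hM : ∀ p, i p + j p + d p = M)
    (hinj : ∀ p q, i p = i q → j p = j q → p = q) {ρ σ : Perm ι}
    (hρ : ∀ p, i (ρ p) = i p) (hσ : ∀ p, j (σ p) = j p) (h : ∀ p, d (ρ p) = d (σ p)) :
    ρ = 1 ∧ σ = 1 := by
  have e1 : ∀ p, (i (σ p) : ℤ) = i p + (j (ρ p) - j p) := fun p => by
    have := hM (ρ p); have := hM (σ p); have := hρ p; have := hσ p; have := h p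
    omega
  have s1 : ∑ p, (i (σ p) : ℤ) ^ 2 = ∑ p, (i p : ℤ) ^ 2 :=
    Equiv.sum_comp σ (fun p => (i p : ℤ) ^ 2)
  have s2 : ∑ p, (i p : ℤ) * j (ρ p) = ∑ p, (i p : ℤ) * j p := by
    rw [← Equiv.sum_comp ρ (fun p => (i p : ℤ) * j p)]
    simp only [hρ]
  have s3 : ∑ p, ((j (ρ p) : ℤ) - j p) ^ 2 = 0 := by
    have : ∀ p, ((j (ρ p) : ℤ) - j p) ^ 2 = (i (σ p) : ℤ) ^ 2 - (i p : ℤ) ^ 2 -
        2 * ((i p : ℤ) * j (ρ p)) + 2 * ((i p : ℤ) * j p) := fun p => by rw [e1]; ring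
    simp only [this, sum_add_distrib, sum_sub_distrib, ← mul_sum, s1, s2]
    ring
  have s4 : ∀ p, j (ρ p) = j p := fun p => by
    have := (sum_eq_zero_iff_of_nonneg (fun p _ => sq_nonneg _)).1 s3 p (mem_univ p)
    have := pow_eq_zero_iff (two_ne_zero) |>.1 this
    omega
  refine ⟨Equiv.ext fun p => hinj _ _ (hρ p) (s4 p), Equiv.ext fun p => hinj _ _ ?_ (hσ p)⟩
  have := e1 p
  have := s4 p
  simp only [Perm.coe_one, id]
  omega

lemma S_self {c r : ι → ℕ} (hinj : ∀ p q, c p = c q → r p = r q → p = q) : S c r r = 1 := by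
  unfold S
  rw [sum_eq_single 1]
  · simp
  · intro σ _ hσ
    rw [if_neg]
    rintro ⟨h1, h2⟩
    exact hσ (Equiv.ext fun p => hinj _ _ (h1 p) (h2 p).symm)
  · simp

/-- signed indicator of the stabiliser of `c` -/
def chi (c : ι → ℕ) (ρ : Perm ι) : ℤ := if ∀ p, c (ρ p) = c p then ((Perm.sign ρ : ℤˣ) : ℤ) else 0

lemma chi_mul {c : ι → ℕ} {τ : Perm ι} (hτ : ∀ p, c (τ p) = c p) (ρ : Perm ι) :
    chi c (τ * ρ) = ((Perm.sign τ : ℤˣ) : ℤ) * chi c ρ := by
  unfold chi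
  simp only [Perm.coe_mul, Function.comp, hτ, Perm.sign_mul, Units.val_mul, mul_ite, mul_zero]

lemma sign_sq (τ : Perm ι) : ((Perm.sign τ : ℤˣ) : ℤ) * ((Perm.sign τ : ℤˣ) : ℤ) = 1 := by
  rw [← Units.val_mul, Int.units_mul_self]; rfl

lemma psd (c : ι → ℕ) (s w : Perm ι → ℤ)
    (h : ∑ ρ, chi c ρ * ((∑ x, s x * s (x * ρ)) * ∑ y, w y * w (y * ρ)) = 0) (x y : Perm ι) :
    ∑ ρ, chi c ρ * (s (x * ρ) * w (y * ρ)) = 0 := by
  set Ψ : Perm ι × Perm ι → ℤ := fun z => ∑ ρ, chi c ρ * (s (z.1 * ρ) * w (z.2 * ρ)) with hΨ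
  have h1 : ∑ z : Perm ι × Perm ι, s z.1 * w z.2 * Ψ z = 0 := by
    rw [← h]
    simp only [hΨ, mul_sum, sum_mul]
    rw [sum_comm]
    refine sum_congr rfl fun ρ _ => ?_
    rw [Fintype.sum_prod_type_right]
    exact sum_congr rfl fun x _ => sum_congr rfl fun y _ => by ring
  have h2 : ∀ τ : Perm ι, (∀ p, c (τ p) = c p) → ∀ z : Perm ι × Perm ι,
      Ψ z = ((Perm.sign τ : ℤˣ) : ℤ) * Ψ (z.1 * τ, z.2 * τ) := by
    intro τ hτ z
    simp only [hΨ, mul_sum]
    rw [← Equiv.sum_comp (Equiv.mulLeft τ)]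
    refine sum_congr rfl fun ρ _ => ?_
    simp only [coe_mulLeft, chi_mul hτ, mul_assoc]
  have h3 : ∑ z, Ψ z * Ψ z = 0 := by
    have : ∀ z, Ψ z * Ψ z = ∑ τ, chi c τ * (s (z.1 * τ) * w (z.2 * τ) * Ψ z) := fun z => by
      conv_lhs => rw [hΨ]
      simp only [sum_mul]
      exact sum_congr rfl fun τ _ => by ring
    simp only [this]
    rw [sum_comm]
    refine sum_eq_zero fun τ _ => ?_
    rw [← mul_sum]
    by_cases hτ : ∀ p, c (τ p) = c p
    · have : ∑ z : Perm ι × Perm ι, s (z.1 * τ) * w (z.2 * τ) * Ψ z =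
          ((Perm.sign τ : ℤˣ) : ℤ) * ∑ z : Perm ι × Perm ι, s z.1 * w z.2 * Ψ z := by
        rw [← Equiv.sum_comp ((Equiv.mulRight τ).prodCongr (Equiv.mulRight τ))
          (fun z => s z.1 * w z.2 * Ψ z), mul_sum]
        refine sum_congr rfl fun z _ => ?_
        rw [h2 τ hτ z]
        simp only [prodCongr_apply, coe_mulRight, Prod.map]
        ring
      rw [this, h1]; simp
    · simp only [chi, if_neg hτ, zero_mul]
  have := (sum_eq_zero_iff_of_nonneg (fun z _ => mul_self_nonneg (Ψ z))).1 h3 (x, y) (mem_univ _)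
  exact mul_self_eq_zero.1 this

theorem thin {i j d : ι → ℕ} {M : ℕ} (hM : ∀ p, i p + j p + d p = M)
    (hinj : ∀ p q, i p = i q → j p = j q → p = q) (r0 : Perm ι) (hr1 : ∀ p, i (r0 p) = i p)
    (hr2 : ∀ p, d (r0 p) = j p) {w : Perm ι → ℤ} (h0 : w ≠ 0) (H : Anti j w) :
    ∃ x y : Perm ι, ∑ g : Perm ι, S j d (d ∘ x ∘ g) * S i d (j ∘ g) * w (y * g) ≠ 0 := by
  by_contra hn
  push Not at hn
  set s : Perm ι → ℤ := fun g => S j d (d ∘ g) with hs
  have sr : ∀ τ : Perm ι, (∀ p, j (τ p) = j p) → ∀ g, s (g * τ) = ((Perm.sign τ : ℤˣ) : ℤ) * s g :=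
    fun τ hτ g => S_right d (d ∘ g) hτ
  set Φ : Perm ι → ℤ := fun g => (∑ x, s x * s (x * g)) * ∑ y, w y * w (y * g) with hΦ
  have left : ∀ f : Perm ι → ℤ, ∀ τ : Perm ι,
      (∀ g, f (g * τ) = ((Perm.sign τ : ℤˣ) : ℤ) * f g) → ∀ g,
      ∑ x, f x * f (x * g) = ((Perm.sign τ : ℤˣ) : ℤ) * ∑ x, f x * f (x * (τ * g)) := by
    intro f τ hf g
    rw [← Equiv.sum_comp (Equiv.mulRight τ), mul_sum]
    refine sum_congr rfl fun x _ => ?_
    simp only [coe_mulRight, hf, mul_assoc]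
  have hΦτ : ∀ τ : Perm ι, (∀ p, j (τ p) = j p) → ∀ g, Φ (τ * g) = Φ g := by
    intro τ hτ g
    simp only [hΦ]
    rw [left s τ (sr τ hτ) g, left w τ (H.full τ hτ) g]
    linear_combination (-(∑ x, s x * s (x * (τ * g))) * ∑ y, w y * w (y * (τ * g))) * sign_sq τ
  have h1 : ∑ g : Perm ι, S i d (j ∘ g) * Φ g = 0 := by
    have : ∑ x, ∑ y, s x * w y *
        ∑ g : Perm ι, S j d (d ∘ x ∘ g) * S i d (j ∘ g) * w (y * g) = 0 := by simp [hn]
    rw [← this]
    simp only [hΦ, mul_sum, sum_mul]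
    rw [sum_comm]
    conv_rhs => rw [sum_comm]
    refine sum_congr rfl fun y _ => ?_
    rw [sum_comm]
    refine sum_congr rfl fun x _ => sum_congr rfl fun g _ => ?_
    have : s (x * g) = S j d (d ∘ x ∘ g) := rfl
    rw [this]; ring
  have h2 : ∑ g : Perm ι, S i j (j ∘ g) * Φ g = 0 := by
    have e : d ∘ r0 = j := funext hr2
    simp only [S_relabel d _ hr1, e, mul_assoc, ← mul_sum] at h1
    exact (mul_eq_zero.1 h1).resolve_left (Units.ne_zero _)
  have h3 : ∑ ρ, chi i ρ * Φ ρ = 0 := by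
    have e1 : ∀ g : Perm ι, S i j (j ∘ g) * Φ g =
        ∑ ρ : Perm ι, if ∀ p, j (g p) = j (ρ p) then chi i ρ * Φ g else 0 := by
      intro g
      unfold S chi
      rw [sum_mul]
      refine sum_congr rfl fun ρ _ => ?_
      by_cases a : ∀ p, i (ρ p) = i p <;> by_cases b : ∀ p, j (g p) = j (ρ p) <;>
        simp only [Function.comp, a, b, if_true, if_false, and_true, and_false, true_and, zero_mul,
          implies_true]
    simp only [e1] at h2
    rw [sum_comm] at h2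
    have e2 : ∀ ρ : Perm ι, (∑ g : Perm ι, if ∀ p, j (g p) = j (ρ p) then chi i ρ * Φ g else 0) =
        ((univ.filter fun τ : Perm ι => ∀ p, j (τ p) = j p).card : ℤ) * (chi i ρ * Φ ρ) := by
      intro ρ
      rw [← Equiv.sum_comp (Equiv.mulRight ρ), card_filter, Nat.cast_sum, sum_mul]
      refine sum_congr rfl fun τ _ => ?_
      by_cases a : ∀ p, j (τ p) = j p
      · have b : ∀ p, j ((Equiv.mulRight ρ) τ p) = j (ρ p) := fun p => a _
        rw [if_pos a, if_pos b, coe_mulRight, hΦτ τ a]; simp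
      · have b : ¬ ∀ p, j ((Equiv.mulRight ρ) τ p) = j (ρ p) :=
          fun b => a fun p => by simpa using b (ρ.symm p)
        rw [if_neg a, if_neg b]; simp
    simp only [e2, ← mul_sum] at h2
    refine (mul_eq_zero.1 h2).resolve_left ?_
    exact_mod_cast (card_pos.2 ⟨1, by simp⟩).ne'
  apply h0
  funext y
  have := psd i s w h3 1 y
  rw [sum_eq_single 1] at this
  · have s1 : s 1 = 1 := S_self fun p q a b => hinj p q (by
      have := hM p; have := hM q; omega) a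
    simpa [chi, s1] using this
  · intro ρ _ hρ
    by_cases a : ∀ p, i (ρ p) = i p
    · have : s (1 * ρ) = 0 := by
        by_contra hh
        obtain ⟨σ, h1, h2⟩ := S_ne_zero hh
        exact hρ (delta_zero hM hinj a h1 (by simpa using h2)).1
      rw [this]; simp
    · simp only [chi, if_neg a, zero_mul]
  · simp

theorem good_thin {i j d c r : ι → ℕ} {M0 M m : ℕ} (hM : ∀ p, i p + j p + d p = M0)
    (hinj : ∀ p q, i p = i q → j p = j q → p = q) (r0 : Perm ι) (hr1 : ∀ p, i (r0 p) = i p)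
    (hr2 : ∀ p, d (r0 p) = j p) (hm : m ≤ M) (hj : ∀ k, hgt j k = m - k)
    (hcard : Fintype.card ι = Rm m m) (hcr : ∀ p q, c p = c q → r p = r q → p = q)
    (hc : ∀ p, c p < M) (hle : ∀ r, Sm (hgt c) M r ≤ Rm m r) :
    ∃ π : Perm ι, Good j d i d (c ∘ π) (r ∘ π) := by
  by_contra hn
  unfold Good at hn
  push Not at hn
  let N : AddSubgroup (Perm ι → ℤ) :=
    { carrier := {w | ∀ x y h : Perm ι,
        ∑ g : Perm ι, S j d (d ∘ x ∘ g) * S i d (j ∘ g) * w (y * g * h) = 0}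
      add_mem' := fun {a b} ha hb x y h => by
        simp only [Pi.add_apply, mul_add, sum_add_distrib, ha x y h, hb x y h, add_zero]
      zero_mem' := fun x y h => by simp
      neg_mem' := fun {a} ha x y h => by
        simp only [Pi.neg_apply, mul_neg, sum_neg_distrib, ha x y h, neg_zero] }
  have hN : ∀ f ∈ N, ∀ h, (fun g => f (g * h)) ∈ N := fun f hf h x y h' => by
    simpa only [mul_assoc] using hf x y (h' * h)
  have w0 : (fun g : Perm ι => S c r (r ∘ g)) ∈ N := fun x y h => by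
    rw [← hn h⁻¹ (d ∘ x) j (r ∘ y)]
    refine sum_congr rfl fun g _ => ?_
    beta_reduce
    rw [← S_equiv (h⁻¹ : Perm ι) c r]
    congr 2
    funext p; simp
  obtain ⟨w, hw, h0, H⟩ := anti_stair N hN hm hj hcard hc hle w0
    (Function.ne_iff.2 ⟨1, by simp [S_self hcr]⟩) (fun a b hab hc g => by
      have := S_right r (r ∘ g) (τ := swap a b) (c := c) (fun p => by
        rw [swap_apply_def]; split_ifs with h1 h2
        · rw [h1, hc]
        · rw [h2, hc]
        · rfl)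
      rw [Perm.sign_swap hab] at this
      simpa [Function.comp_assoc] using this)
  obtain ⟨x, y, hxy⟩ := thin hM hinj r0 hr1 hr2 h0 H
  exact hxy (by simpa using hw x y 1)

end Vale.Agent.P197
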